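import Vale.Agent.P252.H338.Energy
import Vale.Agent.P073.HB.Haj

/-!
# Poincaré inequality in `W^{1,1}` on convex sets and its measure form
-/

open MeasureTheory Set Filter Topology Metric
open scoped ContDiff ENNReal

namespace Vale.Agent.P252.H338

variable {n : ℕ}

theorem weakDeriv_of_contDiffOn {Ω : Set (EuclideanSpace ℝ (Fin n))}
    {g : EuclideanSpace ℝ (Fin n) → ℝ} (hΩ : IsOpen Ω) (hg : ContDiffOn ℝ 1 g Ω) :
    P073.HB.WeakDeriv volume Ω g (fderiv ℝ g) := by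
  intro φ hφ hc hs v
  have hgd : ∀ x ∈ Ω, DifferentiableAt ℝ g x := fun x hx => differentiableAt_of hΩ hg one_ne_zero hx
  have hgc : ContinuousOn (fun x => fderiv ℝ g x v) Ω :=
    (hg.continuousOn_fderiv_of_isOpen hΩ le_rfl).clm_apply continuousOn_const
  have h0 : ∀ x ∈ Ω, x ∉ tsupport φ → φ x = 0 := fun x _ hx => image_eq_zero_of_notMem_tsupport hx
  have h1 := setIntegral_fderiv_eq_zero (μ := volume) (F := fun x => φ x * g x) hΩ hc hs
    ((hφ.of_le (by exact_mod_cast le_top)).contDiffOn.mul hg)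
    (fun x hx hxn => by simp [h0 x hx hxn]) v
  have h2 : ∀ x ∈ Ω, fderiv ℝ (fun x => φ x * g x) x v =
      φ x * fderiv ℝ g x v + fderiv ℝ φ x v * g x := by
    intro x hx
    rw [fderiv_fun_mul ((hφ.differentiable (by simp)) x) (hgd x hx)]
    simp; ring
  rw [setIntegral_congr_fun hΩ.measurableSet h2, integral_add] at h1
  · simp only [smul_eq_mul]
    linarith
  · exact integrableOn_of_compact hΩ hc hs (hφ.continuous.continuousOn.mul hgc)
      (fun x hx hxn => by simp [h0 x hx hxn])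
  · refine integrableOn_of_compact hΩ hc hs ?_ (fun x hx hxn => ?_)
    · exact ((hφ.continuous_fderiv (by simp)).clm_apply continuous_const).continuousOn.mul
        hg.continuousOn
    · have : fderiv ℝ φ x = 0 := by
        have h3 : φ =ᶠ[𝓝 x] fun _ => (0 : ℝ) := by
          filter_upwards [(isClosed_tsupport φ).isOpen_compl.mem_nhds hxn] with z hz
          exact image_eq_zero_of_notMem_tsupport hz
        rw [h3.fderiv_eq]; simp
      simp [this]

/-- **Poincaré inequality** on a convex set. -/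
theorem poincare_smooth {Ω B : Set (EuclideanSpace ℝ (Fin n))}
    {g : EuclideanSpace ℝ (Fin n) → ℝ} (hΩ : IsOpen Ω) (hg : ContDiffOn ℝ 1 g Ω)
    (hB : IsOpen B) (hBc : Convex ℝ B) (hBΩ : B ⊆ Ω) {r : ℝ}
    (hr : ∀ x ∈ B, ∀ y ∈ B, ‖y - x‖ < r) :
    ∫⁻ x in B, ∫⁻ y in B, ‖g y - g x‖ₑ ≤
      ENNReal.ofReal r * volume (ball (0 : EuclideanSpace ℝ (Fin n)) r) *
        ∫⁻ z in B, ‖fderiv ℝ g z‖ₑ := by
  have h := P073.HB.poincare (μ := volume) (Ω := Ω) (f := g) (F := fderiv ℝ g) hΩ hg.continuousOn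
    ((hg.continuousOn_fderiv_of_isOpen hΩ le_rfl).locallyIntegrableOn hΩ.measurableSet)
    (weakDeriv_of_contDiffOn hΩ hg) 0 hB hBc hBΩ hr
  simpa using h

/-- Measure form: a low set and a high set. -/
theorem low_high {Ω B : Set (EuclideanSpace ℝ (Fin n))}
    {g : EuclideanSpace ℝ (Fin n) → ℝ} (hΩ : IsOpen Ω) (hg : ContDiffOn ℝ 1 g Ω)
    (hB : IsOpen B) (hBc : Convex ℝ B) (hBΩ : B ⊆ Ω) {r : ℝ}
    (hr : ∀ x ∈ B, ∀ y ∈ B, ‖y - x‖ < r) (a b : ℝ) :
    ENNReal.ofReal (b - a) * volume {x | x ∈ B ∧ g x ≤ a} * volume {x | x ∈ B ∧ b ≤ g x} ≤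
      ENNReal.ofReal r * volume (ball (0 : EuclideanSpace ℝ (Fin n)) r) *
        ∫⁻ z in B, ‖fderiv ℝ g z‖ₑ := by
  refine le_trans ?_ (poincare_smooth hΩ hg hB hBc hBΩ hr)
  have hgB : ContinuousOn g B := hg.continuousOn.mono hBΩ
  have mE : ∀ T : Set ℝ, MeasurableSet T → MeasurableSet (B ∩ g ⁻¹' T) := by
    intro T hT
    have h1 : Measurable (B.domRestrict g) :=
      (continuousOn_iff_continuous_domRestrict.1 hgB).measurable
    have h2 := (MeasurableEmbedding.subtype_coe hB.measurableSet).measurableSet_image.2 (h1 hT)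
    have h3 : (Subtype.val '' (B.domRestrict g ⁻¹' T)) = B ∩ g ⁻¹' T := by
      ext x
      constructor
      · rintro ⟨⟨y, hy⟩, h, rfl⟩; exact ⟨hy, h⟩
      · rintro ⟨hx, h⟩; exact ⟨⟨x, hx⟩, h, rfl⟩
    rwa [h3] at h2
  have mL : MeasurableSet {x | x ∈ B ∧ g x ≤ a} := mE (Iic a) measurableSet_Iic
  have mH : MeasurableSet {x | x ∈ B ∧ b ≤ g x} := mE (Ici b) measurableSet_Ici
  have h1 : ∀ x ∈ {x | x ∈ B ∧ g x ≤ a},
      ENNReal.ofReal (b - a) * volume {x | x ∈ B ∧ b ≤ g x} ≤ ∫⁻ y in B, ‖g y - g x‖ₑ := by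
    intro x hx
    calc ENNReal.ofReal (b - a) * volume {x | x ∈ B ∧ b ≤ g x}
        = ∫⁻ y in {x | x ∈ B ∧ b ≤ g x}, ENNReal.ofReal (b - a) := by rw [setLIntegral_const]
      _ ≤ ∫⁻ y in {x | x ∈ B ∧ b ≤ g x}, ‖g y - g x‖ₑ := by
          refine setLIntegral_mono' mH fun y hy => ?_
          rw [← ofReal_norm, Real.norm_eq_abs]
          refine ENNReal.ofReal_le_ofReal ?_
          exact (by linarith [hy.2, hx.2] : b - a ≤ g y - g x).trans (le_abs_self _)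
      _ ≤ ∫⁻ y in B, ‖g y - g x‖ₑ := lintegral_mono_set fun y hy => hy.1
  calc ENNReal.ofReal (b - a) * volume {x | x ∈ B ∧ g x ≤ a} * volume {x | x ∈ B ∧ b ≤ g x}
      = ∫⁻ x in {x | x ∈ B ∧ g x ≤ a},
          ENNReal.ofReal (b - a) * volume {x | x ∈ B ∧ b ≤ g x} := by
        rw [setLIntegral_const]; ring
    _ ≤ ∫⁻ x in {x | x ∈ B ∧ g x ≤ a}, ∫⁻ y in B, ‖g y - g x‖ₑ := setLIntegral_mono' mL h1
    _ ≤ ∫⁻ x in B, ∫⁻ y in B, ‖g y - g x‖ₑ := lintegral_mono_set fun x hx => hx.1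

end Vale.Agent.P252.H338
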