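import Vale.Agent.P252.R.Sections
import Vale.Agent.P252.H402.ABP
import Vale.Agent.P252.H338.Poinc

/-!
# Normalised sections of a convex function with pinched Hessian determinant: geometry
-/

open MeasureTheory Set Filter Topology Metric
open scoped ContDiff RealInnerProductSpace

namespace Vale.Agent.P252.H338

open Vale.Agent.P252.R (En SC dt epi)

variable {n : ℕ}

/-- A convex function in normalised position: `{f < 1}` contains the unit ball and is contained in
the ball of radius `rad`, `min f = f x₀ = 0`, `m ≤ det D²f ≤ M`. -/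
structure NF (Ω : Set (En n)) (f : En n → ℝ) (x₀ : En n) (rad m M : ℝ) : Prop where
  sc : SC Ω f
  cv : Convex ℝ Ω
  cpt : IsCompact {x | x ∈ Ω ∧ f x ≤ 1}
  nn : ∀ x ∈ Ω, 0 ≤ f x
  x0m : x₀ ∈ Ω
  fx0 : f x₀ = 0
  inn : ∀ y : En n, ‖y‖ ≤ 1 → y ∈ Ω ∧ f y < 1
  out : ∀ y ∈ Ω, f y ≤ 1 → ‖y‖ ≤ rad
  mpos : 0 < m
  hm : ∀ x ∈ Ω, m ≤ dt f x
  hM : ∀ x ∈ Ω, dt f x ≤ M

theorem two_le_inf : (2 : WithTop ℕ∞) ≤ ∞ := WithTop.coe_le_coe.2 (le_top : (2 : ℕ∞) ≤ ⊤)

namespace NF

variable {Ω : Set (En n)} {f : En n → ℝ} {x₀ : En n} {rad m M : ℝ}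

theorem Mpos (h : NF Ω f x₀ rad m M) : 0 < M :=
  h.mpos.trans_le ((h.hm _ h.x0m).trans (h.hM _ h.x0m))

theorem dapos (h : NF Ω f x₀ rad m M) {x : En n} (hx : x ∈ Ω) : 0 < dt f x :=
  h.mpos.trans_le (h.hm x hx)

theorem tangent (h : NF Ω f x₀ rad m M) {x y : En n} (hx : x ∈ Ω) (hy : y ∈ Ω) :
    f x + fderiv ℝ f x (y - x) ≤ f y := tangent_le h.sc.op h.cv h.sc.sm h.sc.pos hx hy

theorem cvxOn (h : NF Ω f x₀ rad m M) : ConvexOn ℝ Ω f :=
  (strictConvexOn_of_hess h.sc.op h.cv h.sc.sm h.sc.pos).convexOn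

theorem cont (h : NF Ω f x₀ rad m M) : ContinuousOn f Ω := h.sc.sm.continuousOn

theorem isOpen_sub (h : NF Ω f x₀ rad m M) (t : ℝ) : IsOpen {x | x ∈ Ω ∧ f x < t} :=
  h.cont.isOpen_inter_preimage h.sc.op isOpen_Iio

theorem convex_sub (h : NF Ω f x₀ rad m M) (t : ℝ) : Convex ℝ {x | x ∈ Ω ∧ f x < t} :=
  h.cvxOn.convex_lt t

theorem compact_sub (h : NF Ω f x₀ rad m M) {t : ℝ} (ht : t ≤ 1) :
    IsCompact {x | x ∈ Ω ∧ f x ≤ t} := by
  have h1 : {x | x ∈ Ω ∧ f x ≤ t} = {x | x ∈ Ω ∧ f x ≤ 1} ∩ f ⁻¹' Iic t := by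
    ext x
    simp only [mem_ofPred_eq, mem_inter_iff, mem_preimage, mem_Iic]
    constructor
    · rintro ⟨a, b⟩; exact ⟨⟨a, b.trans ht⟩, b⟩
    · rintro ⟨⟨a, _⟩, b⟩; exact ⟨a, b⟩
  rw [h1]
  exact (h.cont.mono fun x hx => hx.1).preimage_isClosed_of_isClosed h.cpt.isClosed isClosed_Iic
    |> fun hc => h.cpt.of_isClosed_subset hc inter_subset_left

theorem rad_ge (h : NF Ω f x₀ rad m M) (hn : 0 < n) : 1 ≤ rad := by
  have h1 := h.inn (EuclideanSpace.single ⟨0, hn⟩ (1 : ℝ)) (by simp)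
  have h2 := h.out _ h1.1 h1.2.le
  simpa using h2

/-- Gradient bound from a ball in the section. -/
theorem grad_le (h : NF Ω f x₀ rad m M) {x : En n} {r : ℝ} (hr : 0 < r)
    (hb : ∀ y, ‖y - x‖ ≤ r → y ∈ Ω ∧ f y ≤ 1) : ‖fderiv ℝ f x‖ ≤ 1 / r := by
  refine ContinuousLinearMap.opNorm_le_of_unit_norm (by positivity) fun v hv => ?_
  have hx : x ∈ Ω := (hb x (by simp [hr.le])).1
  have key : ∀ w : En n, ‖w‖ = 1 → fderiv ℝ f x w ≤ 1 / r := by
    intro w hw
    have hy := hb (x + r • w) (by simp [norm_smul, hw, abs_of_pos hr])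
    have h1 := h.tangent hx hy.1
    rw [add_sub_cancel_left, map_smul, smul_eq_mul] at h1
    rw [le_div_iff₀ hr]
    have := h.nn x hx
    linarith [hy.2]
  rw [Real.norm_eq_abs, abs_le]
  refine ⟨?_, key v hv⟩
  have := key (-v) (by rwa [norm_neg])
  rw [map_neg] at this
  linarith

theorem contDiffAt (h : NF Ω f x₀ rad m M) {x : En n} (hx : x ∈ Ω) {k : WithTop ℕ∞}
    (hk : k ≤ ∞) : ContDiffAt ℝ k f x :=
  (h.sc.sm.contDiffAt (h.sc.op.mem_nhds hx)).of_le hk

/-- The norm of the gradient. -/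
theorem norm_grad (f : En n → ℝ) (x : En n) : ‖H402.grad f x‖ = ‖fderiv ℝ f x‖ := by
  have h1 : fderiv ℝ f x = innerSL ℝ (H402.grad f x) := by
    ext v
    rw [fderiv_apply_eq_sum_pd, innerSL_apply_apply]
    simp [H402.grad, PiLp.inner_apply, mul_comm]
  rw [h1, innerSL_apply_norm]

theorem vol_ball (x : En n) {r : ℝ} (hr : 0 < r) :
    volume (ball x r) = ENNReal.ofReal (r ^ n) * volume (ball (0 : En n) 1) := by
  have := Measure.addHaar_ball_of_pos (volume : Measure (En n)) x hr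
  simpa using this

theorem vol_closedBall (x : En n) {r : ℝ} (hr : 0 < r) :
    volume (closedBall x r) = ENNReal.ofReal (r ^ n) * volume (ball (0 : En n) 1) := by
  have := Measure.addHaar_closedBall (volume : Measure (En n)) x hr.le
  simpa using this

theorem vol_unit_pos : 0 < volume (ball (0 : En n) 1) := measure_ball_pos _ _ one_pos

theorem vol_unit_lt_top : volume (ball (0 : En n) 1) < ⊤ := measure_ball_lt_top

/-- Upper bound of the lower determinant bound. -/
theorem m_le (h : NF Ω f x₀ rad m M) : m ≤ 4 ^ n := by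
  have hgr : ∀ x ∈ ball (0 : En n) (1 / 2), ‖fderiv ℝ f x‖ ≤ 2 := by
    intro x hx
    rw [mem_ball_zero_iff] at hx
    have := h.grad_le (x := x) (r := 1 / 2) (by norm_num) (fun y hy => by
      have h1 : ‖y‖ ≤ 1 := by
        have : y = (y - x) + x := by abel
        rw [this]; exact (norm_add_le _ _).trans (by linarith)
      exact ⟨(h.inn y h1).1, (h.inn y h1).2.le⟩)
    simpa using this
  have hsub : ball (0 : En n) (1 / 2) ⊆ Ω := by
    intro x hx
    rw [mem_ball_zero_iff] at hx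
    exact (h.inn x (by linarith)).1
  have harea := lintegral_abs_det_fderiv_eq_addHaar_image (volume : Measure (En n))
    (f := H402.grad f)
    (f' := fun x => (Matrix.toEuclideanLin (hess f x).transpose).toContinuousLinearMap)
    (s := ball (0 : En n) (1 / 2)) measurableSet_ball
    (fun x hx => (H402.hasFDerivAt_grad (h.contDiffAt (hsub hx) two_le_inf)).hasFDerivWithinAt)
    (by
      intro x hx y hy hxy
      refine fderiv_injOn h.sc.op h.cv h.sc.sm h.sc.pos (hsub hx) (hsub hy) ?_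
      ext v
      rw [fderiv_apply_eq_sum_pd, fderiv_apply_eq_sum_pd]
      have h2 : ∀ i, pd i f x = pd i f y := fun i => congrArg (fun z : En n => z i) hxy
      simp [h2])
  have h1 : ENNReal.ofReal m * volume (ball (0 : En n) (1 / 2)) ≤
      volume (closedBall (0 : En n) 2) := by
    calc ENNReal.ofReal m * volume (ball (0 : En n) (1 / 2))
        = ∫⁻ x in ball (0 : En n) (1 / 2), ENNReal.ofReal m := by rw [setLIntegral_const]
      _ ≤ ∫⁻ x in ball (0 : En n) (1 / 2), ENNReal.ofReal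
            |((Matrix.toEuclideanLin (hess f x).transpose).toContinuousLinearMap :
              En n →L[ℝ] En n).det| := by
          refine setLIntegral_mono' measurableSet_ball fun x hx => ENNReal.ofReal_le_ofReal ?_
          rw [H402.det_toEuclideanLin, Matrix.det_transpose]
          exact (h.hm x (hsub hx)).trans (le_abs_self _)
      _ = volume (H402.grad f '' ball (0 : En n) (1 / 2)) := harea
      _ ≤ volume (closedBall (0 : En n) 2) := by
          refine measure_mono ?_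
          rintro _ ⟨x, hx, rfl⟩
          rw [mem_closedBall_zero_iff, norm_grad]
          exact hgr x hx
  rw [vol_ball _ (by norm_num), vol_closedBall _ (by norm_num), ← mul_assoc] at h1
  have h2 := (ENNReal.mul_le_mul_iff_left vol_unit_pos.ne' vol_unit_lt_top.ne).1 h1
  rw [← ENNReal.ofReal_mul h.mpos.le, ENNReal.ofReal_le_ofReal_iff (by positivity)] at h2
  have h3 : (0 : ℝ) < (1 / 2) ^ n := by positivity
  have h4 : m ≤ 2 ^ n / (1 / 2) ^ n := by rwa [le_div_iff₀ h3]
  refine h4.trans (le_of_eq ?_)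
  rw [← div_pow]; norm_num

/-- Lower bound of the upper determinant bound. -/
theorem M_ge (h : NF Ω f x₀ rad m M) (hn : 0 < n) : (1 / (2 * rad ^ 2)) ^ n ≤ M := by
  have hrad : 1 ≤ rad := h.rad_ge hn
  have hM := h.Mpos
  set S : Set (En n) := {x | x ∈ Ω ∧ f x ≤ 1} with hS
  set U : Set (En n) := {x | x ∈ Ω ∧ f x < 1} with hU
  have hUS : U ⊆ S := fun x hx => ⟨hx.1, hx.2.le⟩
  have hx0n : ‖x₀‖ ≤ rad := h.out _ h.x0m (by rw [h.fx0]; norm_num)
  have h2 : ∀ x ∈ U, ContDiffAt ℝ 2 (fun y => f y - 1) x := fun x hx =>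
    (h.contDiffAt hx.1 two_le_inf).sub contDiffAt_const
  have hhess : ∀ x ∈ U, hess (fun y => f y - 1) x = hess f x := by
    intro x hx
    ext i j
    simp only [hess, Matrix.of_apply]
    have : pd j (fun y => f y - 1) = pd j f := by
      funext z; simp only [pd]; rw [fderiv_sub_const]
    rw [this]
  have h1 := H402.abp_measure (S := S) (U := U) h.cpt (h.isOpen_sub 1) hUS
    (φ := fun y => f y - 1) ((h.cont.mono fun x hx => hx.1).sub continuousOn_const) h2
    (x₀ := x₀) ⟨h.x0m, by rw [h.fx0]; norm_num⟩ (m := 1) (d := 2 * rad) (by positivity)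
    (by rw [h.fx0]; norm_num)
    (fun x hx => (norm_sub_le _ _).trans (by linarith [h.out x hx.1 hx.2]))
    (fun x hx hxU => by
      have : ¬ f x < 1 := fun hlt => hxU ⟨hx.1, hlt⟩
      show 0 ≤ f x - 1
      linarith)
    (Λ := M) (T := closedBall (0 : En n) rad)
    (fun x hx => by
      rw [mem_closedBall_zero_iff]; exact h.out x hx.1.1 hx.1.2.le)
    (fun x hx => by rw [hhess x hx.1]; exact h.hM x hx.1.1)
  rw [vol_ball _ (by positivity), vol_closedBall _ (by positivity), ← mul_assoc] at h1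
  have h3 := (ENNReal.mul_le_mul_iff_left vol_unit_pos.ne' vol_unit_lt_top.ne).1 h1
  rw [← ENNReal.ofReal_mul hM.le, ENNReal.ofReal_le_ofReal_iff (by positivity)] at h3
  have h4 : 0 < rad ^ n := by positivity
  calc (1 / (2 * rad ^ 2)) ^ n = (1 / (2 * rad)) ^ n / rad ^ n := by
        rw [← div_pow]; congr 1; field_simp
    _ ≤ M := by rwa [div_le_iff₀ h4]

end NF

end Vale.Agent.P252.H338
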