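import Vale.Agent.P252.H338.Core1

/-!
# Normalised sections: Aleksandrov's distance estimate and the gradient bound
-/

open MeasureTheory Set Filter Topology Metric
open scoped ContDiff RealInnerProductSpace

namespace Vale.Agent.P252.H338

open Vale.Agent.P252.R (En SC dt epi)

variable {n : ℕ}

namespace NF

variable {Ω : Set (En n)} {f : En n → ℝ} {x₀ : En n} {rad m M : ℝ}

/-- The volume of a chain of disjoint balls in the direction `e`. -/
theorem chain_vol {e : En n} (he : ‖e‖ = 1) {q : ℝ} (hq : 0 < q) (N : ℕ) :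
    (N : ENNReal) * volume (ball (0 : En n) q) ≤
      volume (⋃ k ∈ Finset.range N, ball ((2 * q * k) • e) q) := by
  rw [measure_biUnion_finset]
  · have : ∀ k ∈ Finset.range N, volume (ball (((2 * q * k : ℝ)) • e) q) =
        volume (ball (0 : En n) q) := by
      intro k _
      exact Measure.addHaar_ball_center _ _ _
    rw [Finset.sum_congr rfl this]
    simp
  · intro k _ l _ hkl
    refine ball_disjoint_ball ?_
    rw [dist_eq_norm, ← sub_smul, norm_smul, he, mul_one, ← mul_sub, norm_mul]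
    have h1 : (1 : ℝ) ≤ ‖(k : ℝ) - l‖ := by
      rw [Real.norm_eq_abs]
      have : (1 : ℤ) ≤ |(k : ℤ) - l| := Int.one_le_abs (by omega)
      have h2 : ((1 : ℤ) : ℝ) ≤ ((|(k : ℤ) - l| : ℤ) : ℝ) := by exact_mod_cast this
      simpa using h2
    rw [Real.norm_eq_abs, abs_of_pos (by positivity : (0 : ℝ) < 2 * q)]
    nlinarith
  · intro k _
    exact measurableSet_ball

/-- **Aleksandrov's distance estimate.** -/
theorem alek (h : NF Ω f x₀ rad m M) (hn : 0 < n) {x z : En n} (hx : x ∈ Ω) (hfx : f x ≤ 3 / 4)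
    (hz : ¬ (z ∈ Ω ∧ f z < 1)) : rad / (M * (16 * rad ^ 2) ^ n) ≤ ‖z - x‖ := by
  have hrad : 1 ≤ rad := h.rad_ge hn
  have hM := h.Mpos
  set S : Set (En n) := {y | y ∈ Ω ∧ f y < 1} with hS
  have hSo : IsOpen S := h.isOpen_sub 1
  have hSc : Convex ℝ S := h.convex_sub 1
  have hxS : x ∈ S := ⟨hx, by linarith⟩
  have hzS : z ∉ S := hz
  set d := ‖z - x‖ with hd
  have hd0 : 0 < d := by
    rw [hd, norm_pos_iff, sub_ne_zero]
    rintro rfl; exact hzS hxS
  -- separation
  obtain ⟨φ, hφ⟩ := geometric_hahn_banach_open_point hSc hSo hzS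
  set w : En n := (InnerProductSpace.toDual ℝ (En n)).symm φ with hw
  have hwφ : ∀ y, ⟪w, y⟫ = φ y := fun y => by
    rw [hw, InnerProductSpace.toDual_symm_apply]
  have hw0 : 0 < ‖w‖ := by
    rw [norm_pos_iff]
    rintro hw0
    have := hφ x hxS
    rw [← hwφ, ← hwφ, hw0, inner_zero_left, inner_zero_left] at this
    exact lt_irrefl _ this
  set e : En n := ‖w‖⁻¹ • w with he
  have he1 : ‖e‖ = 1 := by rw [he, norm_smul, norm_inv, norm_norm, inv_mul_cancel₀ hw0.ne']
  have hS1 : ∀ y ∈ S, ⟪e, y - x⟫ ≤ d := by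
    intro y hy
    have h1 : ⟪w, y - x⟫ ≤ ⟪w, z - x⟫ := by
      rw [inner_sub_right, inner_sub_right]
      have := hφ y hy
      rw [← hwφ, ← hwφ] at this
      linarith
    rw [he, real_inner_smul_left]
    calc ‖w‖⁻¹ * ⟪w, y - x⟫ ≤ ‖w‖⁻¹ * ⟪w, z - x⟫ := by gcongr
      _ ≤ ‖w‖⁻¹ * (‖w‖ * d) := by gcongr; exact real_inner_le_norm _ _
      _ = d := by rw [← mul_assoc, inv_mul_cancel₀ hw0.ne', one_mul]
  have hS2 : ∀ y ∈ Ω, f y ≤ 1 → ⟪e, y - x⟫ ≤ d := by
    intro y hy hfy
    by_contra hcon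
    push Not at hcon
    have hpos : 0 < ⟪e, y - x⟫ := hd0.trans hcon
    set t : ℝ := (d / ⟪e, y - x⟫ + 1) / 2 with ht
    have hq1 : d / ⟪e, y - x⟫ < 1 := by rwa [div_lt_one hpos]
    have hq0 : 0 < d / ⟪e, y - x⟫ := by positivity
    have ht1 : t < 1 := by rw [ht]; linarith
    have ht0 : 0 < t := by rw [ht]; linarith
    have hyt : (1 - t) • x + t • y ∈ S := by
      refine ⟨h.cv hx hy (by linarith) ht0.le (by ring), ?_⟩
      have := h.cvxOn.2 hx hy (by linarith : 0 ≤ 1 - t) ht0.le (by ring)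
      simp only [smul_eq_mul] at this
      nlinarith
    have h2 := hS1 _ hyt
    have h3 : (1 - t) • x + t • y - x = t • (y - x) := by
      rw [sub_smul, one_smul, smul_sub]; abel
    rw [h3, real_inner_smul_right] at h2
    have h4 : d < t * ⟪e, y - x⟫ := by
      have : d / ⟪e, y - x⟫ < t := by rw [ht]; linarith
      rwa [div_lt_iff₀ hpos] at this
    linarith
  -- the slopes
  set q : ℝ := 1 / (16 * rad) with hq
  have hq0 : 0 < q := by positivity
  set s₀ : ℝ := 1 / (8 * d) with hs0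
  have hs00 : 0 < s₀ := by positivity
  set N : ℕ := ⌊s₀ / (2 * q)⌋₊ + 1 with hN
  have himg : (⋃ k ∈ Finset.range N, ball ((2 * q * k : ℝ) • e) q) ⊆ H402.grad f '' S := by
    intro p hp
    simp only [mem_iUnion, Finset.mem_range, mem_ball, dist_eq_norm] at hp
    obtain ⟨k, hk, hpk⟩ := hp
    set s : ℝ := 2 * q * k with hs
    have hs1 : 0 ≤ s := by positivity
    have hs2 : s ≤ s₀ := by
      have h1 : (k : ℝ) ≤ s₀ / (2 * q) := by
        have : k ≤ ⌊s₀ / (2 * q)⌋₊ := by omega
        exact (Nat.cast_le.2 this).trans (Nat.floor_le (by positivity))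
      rw [le_div_iff₀ (by positivity)] at h1
      rw [hs]; linarith
    have hpy : ∀ y ∈ Ω, f y ≤ 1 → ⟪p, y - x⟫ < 1 / 4 := by
      intro y hy hfy
      have e1 : ⟪p, y - x⟫ = s * ⟪e, y - x⟫ + ⟪p - s • e, y - x⟫ := by
        have e2 : ⟪s • e, y - x⟫ = s * ⟪e, y - x⟫ := real_inner_smul_left _ _ _
        rw [inner_sub_left, e2]; ring
      have h1 : s * ⟪e, y - x⟫ ≤ 1 / 8 := by
        calc s * ⟪e, y - x⟫ ≤ s * d := mul_le_mul_of_nonneg_left (hS2 y hy hfy) hs1
          _ ≤ s₀ * d := by gcongr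
          _ = 1 / 8 := by rw [hs0]; field_simp
      have hyx : ‖y - x‖ ≤ 2 * rad :=
        (norm_sub_le _ _).trans (by linarith [h.out y hy hfy, h.out x hx (by linarith)])
      have h2 : ⟪p - s • e, y - x⟫ < 1 / 8 := by
        calc ⟪p - s • e, y - x⟫ ≤ ‖p - s • e‖ * ‖y - x‖ := real_inner_le_norm _ _
          _ ≤ ‖p - s • e‖ * (2 * rad) := by gcongr
          _ < q * (2 * rad) := by gcongr
          _ = 1 / 8 := by rw [hq]; field_simp; norm_num
      rw [e1]; linarith
    obtain ⟨y, hyK, hymin⟩ := h.cpt.exists_isMinOn ⟨x, hx, by linarith⟩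
      ((h.cont.mono fun x hx => hx.1).sub
        (by fun_prop : Continuous fun y : En n => ⟪p, y⟫).continuousOn)
    have hmin : ∀ z' ∈ Ω, f z' ≤ 1 → f y - ⟪p, y⟫ ≤ f z' - ⟪p, z'⟫ := fun z' hz' hfz' =>
      hymin ⟨hz', hfz'⟩
    have hyS : y ∈ S := by
      refine ⟨hyK.1, ?_⟩
      by_contra hcon
      push Not at hcon
      have h1 := hmin x hx (by linarith)
      have h2 := hpy y hyK.1 hyK.2
      rw [inner_sub_right] at h2
      linarith
    have hloc : IsLocalMin (fun y => f y - ⟪p, y⟫) y := by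
      filter_upwards [hSo.mem_nhds hyS] with z' hz'
      exact hmin z' hz'.1 hz'.2.le
    obtain ⟨h3, _⟩ := H402.contact_conditions (h.contDiffAt hyS.1 two_le_inf) hloc
    refine ⟨y, hyS, ?_⟩
    ext i
    exact h3 i
  -- volumes
  have harea : volume (H402.grad f '' S) ≤ ENNReal.ofReal M * volume (closedBall (0 : En n) rad) := by
    have h1 := addHaar_image_le_lintegral_abs_det_fderiv (μ := (volume : Measure (En n)))
      (f := H402.grad f)
      (f' := fun x => (Matrix.toEuclideanLin (hess f x).transpose).toContinuousLinearMap)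
      (s := S) hSo.measurableSet
      (fun x hx => (H402.hasFDerivAt_grad (h.contDiffAt hx.1 two_le_inf)).hasFDerivWithinAt)
    refine h1.trans ?_
    calc ∫⁻ x in S, ENNReal.ofReal
            |((Matrix.toEuclideanLin (hess f x).transpose).toContinuousLinearMap :
              En n →L[ℝ] En n).det|
        ≤ ∫⁻ x in S, ENNReal.ofReal M := by
          refine setLIntegral_mono' hSo.measurableSet fun x hx => ENNReal.ofReal_le_ofReal ?_
          rw [H402.det_toEuclideanLin, Matrix.det_transpose]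
          have h5 : 0 < (hess f x).det := h.dapos hx.1
          rw [abs_of_pos h5]
          exact h.hM x hx.1
      _ = ENNReal.ofReal M * volume S := by rw [setLIntegral_const]
      _ ≤ ENNReal.ofReal M * volume (closedBall (0 : En n) rad) := by
          gcongr
          intro y hy
          rw [mem_closedBall_zero_iff]
          exact h.out y hy.1 hy.2.le
  have htot := (chain_vol he1 hq0 N).trans ((measure_mono himg).trans harea)
  rw [vol_ball _ hq0, vol_closedBall _ (by positivity), ← mul_assoc, ← mul_assoc] at htot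
  have h2 := (ENNReal.mul_le_mul_iff_left vol_unit_pos.ne' vol_unit_lt_top.ne).1 htot
  rw [← ENNReal.ofReal_natCast N, ← ENNReal.ofReal_mul (by positivity),
    ← ENNReal.ofReal_mul hM.le, ENNReal.ofReal_le_ofReal_iff (by positivity)] at h2
  have hNge : rad / d ≤ N := by
    have h3 : s₀ / (2 * q) = rad / d := by
      rw [hs0, hq]; field_simp; norm_num
    rw [← h3, hN]
    push_cast
    exact (Nat.lt_floor_add_one _).le
  have h4 : rad / d * q ^ n ≤ M * rad ^ n := le_trans (by gcongr) h2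
  have h5 : rad * q ^ n ≤ M * rad ^ n * d := by
    rw [div_mul_eq_mul_div, div_le_iff₀ hd0] at h4
    linarith
  have h6 : (16 * rad ^ 2) ^ n * q ^ n = rad ^ n := by
    rw [← mul_pow, hq]; congr 1; field_simp
  rw [div_le_iff₀ (by positivity)]
  have h7 : 0 < q ^ n := by positivity
  have h8 : rad * q ^ n ≤ (d * (M * (16 * rad ^ 2) ^ n)) * q ^ n := by
    calc rad * q ^ n ≤ M * rad ^ n * d := h5
      _ = M * ((16 * rad ^ 2) ^ n * q ^ n) * d := by rw [h6]
      _ = (d * (M * (16 * rad ^ 2) ^ n)) * q ^ n := by ring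
  exact le_of_mul_le_mul_right h8 h7

/-- The gradient bound on `{f ≤ 3/4}`. -/
theorem grad_bound (h : NF Ω f x₀ rad m M) (hn : 0 < n) {x : En n} (hx : x ∈ Ω)
    (hfx : f x ≤ 3 / 4) : ‖fderiv ℝ f x‖ ≤ 2 * (M * (16 * rad ^ 2) ^ n) / rad := by
  have hrad : 1 ≤ rad := h.rad_ge hn
  have hM := h.Mpos
  set ρ := rad / (M * (16 * rad ^ 2) ^ n) with hρ
  have hρ0 : 0 < ρ := by positivity
  have h1 := h.grad_le (x := x) (r := ρ / 2) (by positivity) (fun y hy => by
    by_contra hcon
    have h2 : ¬ (y ∈ Ω ∧ f y < 1) := fun h3 => hcon ⟨h3.1, h3.2.le⟩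
    have := h.alek hn hx hfx h2
    linarith)
  refine h1.trans (le_of_eq ?_)
  rw [hρ]; field_simp

end NF

end Vale.Agent.P252.H338
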