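import Vale.Agent.P252.H338.Core2
import Vale.Agent.P252.H392.Lop

/-!
# Normalised sections: energy bounds for `log (v + ε)`, `v` a nonnegative supersolution
-/

open MeasureTheory Set Filter Topology Metric
open scoped ContDiff RealInnerProductSpace

namespace Vale.Agent.P252.H338

open Vale.Agent.P252.R (En SC dt epi Lop)

variable {n : ℕ}

/-- A fixed smooth cut-off. -/
theorem exists_cutoff : ∃ (φ : ℝ → ℝ) (B : ℝ), ContDiff ℝ ∞ φ ∧ 0 ≤ B ∧
    (∀ t, 0 ≤ φ t ∧ φ t ≤ 1) ∧ (∀ t, t ≤ 1 / 2 → φ t = 1) ∧ (∀ t, 3 / 4 ≤ t → φ t = 0) ∧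
    (∀ t, -B ≤ deriv φ t) ∧ ∀ t, deriv φ t ≤ 0 := by
  set φ : ℝ → ℝ := fun t => Real.smoothTransition (3 - 4 * t) with hφ
  have hsm : ContDiff ℝ ∞ φ := (Real.smoothTransition.contDiff (n := (⊤ : ℕ∞))).comp
    (by fun_prop : ContDiff ℝ ∞ fun t : ℝ => 3 - 4 * t)
  have hanti : Antitone φ := by
    intro s t hst
    exact Real.smoothTransition.monotone (by linarith)
  have h1 : ∀ t, t ≤ 1 / 2 → φ t = 1 := fun t ht =>
    Real.smoothTransition.one_of_one_le (by linarith)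
  have h0 : ∀ t, 3 / 4 ≤ t → φ t = 0 := fun t ht =>
    Real.smoothTransition.zero_of_nonpos (by linarith)
  have hdc : Continuous (deriv φ) := hsm.continuous_deriv (by simp)
  obtain ⟨B, hB⟩ := (isCompact_Icc (a := (1 / 2 : ℝ)) (b := 3 / 4)).exists_bound_of_continuousOn
    hdc.continuousOn
  refine ⟨φ, max B 0, hsm, le_max_right _ _, fun t =>
    ⟨Real.smoothTransition.nonneg _, Real.smoothTransition.le_one _⟩, h1, h0, fun t => ?_,
    fun t => hanti.deriv_nonpos⟩
  by_cases ht : t ∈ Icc (1 / 2 : ℝ) (3 / 4)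
  · have := hB t ht
    rw [Real.norm_eq_abs] at this
    have h2 := (abs_le.1 this).1
    linarith [le_max_left B 0]
  · have hz : deriv φ t = 0 := by
      rw [mem_Icc, not_and_or, not_le, not_le] at ht
      rcases ht with ht | ht
      · have : φ =ᶠ[𝓝 t] fun _ => (1 : ℝ) := by
          filter_upwards [Iio_mem_nhds ht] with s hs
          exact h1 s (le_of_lt hs)
        rw [this.deriv_eq]; simp
      · have : φ =ᶠ[𝓝 t] fun _ => (0 : ℝ) := by
          filter_upwards [Ioi_mem_nhds ht] with s hs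
          exact h0 s (le_of_lt hs)
        rw [this.deriv_eq]; simp
    rw [hz]
    linarith [le_max_right B 0]

namespace NF

variable {Ω : Set (En n)} {f : En n → ℝ} {x₀ : En n} {rad m M : ℝ}

/-- The cofactor matrix of the Hessian. -/
noncomputable def cof (f : En n → ℝ) (x : En n) : Matrix (Fin n) (Fin n) ℝ :=
  Matrix.of fun i j => (hess f x).det * (hess f x)⁻¹ i j

theorem cof_eq (f : En n → ℝ) (x : En n) : cof f x = (hess f x).det • (hess f x)⁻¹ := by
  ext i j; simp [cof]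

theorem bil_cof (f : En n → ℝ) (x : En n) (ξ ζ : Fin n → ℝ) :
    bil (cof f x) ξ ζ = dt f x * bil (hess f x)⁻¹ ξ ζ := by
  simp only [bil, cof, Matrix.of_apply, dt, Finset.mul_sum]
  exact Finset.sum_congr rfl fun i _ => Finset.sum_congr rfl fun j _ => by ring

theorem sm (h : NF Ω f x₀ rad m M) {x : En n} (hx : x ∈ Ω) : C.Sm f x :=
  h.sc.sm.contDiffAt (h.sc.op.mem_nhds hx)

theorem cof_smooth (h : NF Ω f x₀ rad m M) (i j : Fin n) :
    ContDiffOn ℝ 1 (fun y => cof f y i j) Ω := by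
  intro x hx
  have h1 := C.sm_hess_det (h.sm hx)
  have h2 := C.sm_uinv (h.sm hx) (h.dapos hx).ne' i j
  exact ((h1.mul h2).of_le (by simp)).contDiffWithinAt

theorem cof_div (h : NF Ω f x₀ rad m M) : ∀ y ∈ Ω, ∀ j, ∑ i, pd i (fun z => cof f z i j) y = 0 :=
  fun _ hy j => C.sum_pd_cof (h.sm hy) (h.dapos hy).ne' j

theorem cof_psd (h : NF Ω f x₀ rad m M) : ∀ y ∈ Ω, (cof f y).PosSemidef := by
  intro y hy
  rw [cof_eq]
  exact ((h.sc.pos y hy).inv.smul (h.dapos hy)).posSemidef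

theorem cof_trace (h : NF Ω f x₀ rad m M) {x : En n} (hx : x ∈ Ω) :
    ∑ i, ∑ j, cof f x i j * pd i (pd j f) x = n * dt f x := by
  have h1 := C.Lo_self (h.sm hx) (h.dapos hx).ne'
  simp only [cof, Matrix.of_apply]
  have : ∑ i, ∑ j, (hess f x).det * (hess f x)⁻¹ i j * pd i (pd j f) x =
      (hess f x).det * C.Lo f f x := by
    simp only [C.Lo, Finset.mul_sum, hess, Matrix.of_apply]
    exact Finset.sum_congr rfl fun i _ => Finset.sum_congr rfl fun j _ => by ring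
  rw [this, h1, dt]; ring

/-- The volume constant. -/
noncomputable def vr (n : ℕ) (rad : ℝ) : ℝ := (volume (closedBall (0 : En n) rad)).toReal

theorem vr_nonneg : 0 ≤ vr n rad := ENNReal.toReal_nonneg

/-- integrals over `Ω` of functions supported in `{f ≤ 3/4}` -/
theorem setIntegral_le_vr (h : NF Ω f x₀ rad m M) {F : En n → ℝ} {c : ℝ} (hc : 0 ≤ c)
    (hF : ContinuousOn F Ω) (h0 : ∀ x ∈ Ω, x ∉ {x | x ∈ Ω ∧ f x ≤ 3 / 4} → F x = 0)
    (hb : ∀ x ∈ Ω, f x ≤ 3 / 4 → F x ≤ c) : ∫ x in Ω, F x ≤ c * vr n rad := by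
  set K := {x | x ∈ Ω ∧ f x ≤ 3 / 4} with hK
  have hKc : IsCompact K := h.compact_sub (by norm_num)
  have hKΩ : K ⊆ Ω := fun x hx => hx.1
  have h1 : ∫ x in Ω, F x = ∫ x in K, F x := by
    refine (setIntegral_eq_of_subset_of_forall_sdiff_eq_zero h.sc.op.measurableSet hKΩ ?_)
    intro x hx
    exact h0 x hx.1 hx.2
  rw [h1]
  have h2 : ∫ x in K, F x ≤ ∫ x in K, c := by
    refine setIntegral_mono_on ((hF.mono hKΩ).integrableOn_compact hKc)
      (by simp [hKc.measure_lt_top]) hKc.measurableSet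
      fun x hx => hb x hx.1 hx.2
  refine h2.trans ?_
  rw [setIntegral_const, smul_eq_mul, mul_comm]
  refine mul_le_mul_of_nonneg_left ?_ hc
  rw [measureReal_def]
  refine ENNReal.toReal_mono (isCompact_closedBall _ _).measure_lt_top.ne (measure_mono ?_)
  intro x hx
  rw [mem_closedBall_zero_iff]
  exact h.out x hx.1 (by linarith [hx.2])

variable {φ : ℝ → ℝ} {B : ℝ}

/-- `∫ φ(f) Δf ≤ B P² |K|`. -/
theorem laplace_bound (h : NF Ω f x₀ rad m M) (hn : 0 < n) (hφ : ContDiff ℝ ∞ φ) (hB : 0 ≤ B)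
    (h0 : ∀ t, 3 / 4 ≤ t → φ t = 0) (hd : ∀ t, -B ≤ deriv φ t) (hd' : ∀ t, deriv φ t ≤ 0) :
    ∫ x in Ω, φ (f x) * (hess f x).trace ≤
      B * (2 * (M * (16 * rad ^ 2) ^ n) / rad) ^ 2 * vr n rad := by
  set P := 2 * (M * (16 * rad ^ 2) ^ n) / rad with hP
  set K := {x | x ∈ Ω ∧ f x ≤ 3 / 4} with hK
  have hKc : IsCompact K := h.compact_sub (by norm_num)
  have hKΩ : K ⊆ Ω := fun x hx => hx.1
  have hz : ∀ y ∈ Ω, y ∉ K → φ (f y) = 0 := by
    intro y hy hyK
    refine h0 _ ?_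
    by_contra hc
    exact hyK ⟨hy, (not_le.1 hc).le⟩
  have hf2 : ContDiffOn ℝ 2 f Ω := h.sc.sm.of_le two_le_inf
  have hχ : ContDiffOn ℝ 1 (fun y => φ (f y)) Ω :=
    (hφ.of_le (by simp)).comp_contDiffOn (hf2.of_le (by norm_num))
  have hgreen := green (U := fun _ => (1 : Matrix (Fin n) (Fin n) ℝ)) (a := fun x => φ (f x))
    h.sc.op hKc hKΩ (fun i j => contDiffOn_const) (fun y _ j => by simp [pd_const]) hχ hz hf2
  have e1 : ∀ x, ∑ i, ∑ j, (1 : Matrix (Fin n) (Fin n) ℝ) i j * pd i (pd j f) x =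
      (hess f x).trace := by
    intro x
    simp [Matrix.one_apply, Matrix.trace, hess]
  simp only [e1] at hgreen
  have e2 : ∫ x in Ω, φ (f x) * (hess f x).trace =
      ∫ x in Ω, - ∑ i, ∑ j, (1 : Matrix (Fin n) (Fin n) ℝ) i j *
        (pd i (fun x => φ (f x)) x * pd j f x) := by
    rw [integral_neg, hgreen, neg_neg]
  rw [e2]
  have hnorm : ∀ x, ∑ i, pd i f x ^ 2 = ‖fderiv ℝ f x‖ ^ 2 := by
    intro x
    rw [← norm_grad, EuclideanSpace.norm_sq_eq]
    simp [H402.grad]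
  have e3 : ∀ x ∈ Ω, - ∑ i, ∑ j, (1 : Matrix (Fin n) (Fin n) ℝ) i j *
        (pd i (fun x => φ (f x)) x * pd j f x) = - deriv φ (f x) * ‖fderiv ℝ f x‖ ^ 2 := by
    intro x hx
    have h1 : ∀ i, pd i (fun y => φ (f y)) x = deriv φ (f x) * pd i f x := fun i =>
      pd_comp i ((hφ.differentiable (by simp)) _) (differentiableAt_of h.sc.op hf2 two_ne_zero hx)
    rw [← hnorm]
    simp only [Matrix.one_apply, h1, ite_mul, one_mul, zero_mul, Finset.sum_ite_eq,
      Finset.mem_univ, if_true, neg_mul, Finset.mul_sum]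
    rw [← Finset.sum_neg_distrib]
    exact Finset.sum_congr rfl fun i _ => by ring
  rw [setIntegral_congr_fun h.sc.op.measurableSet e3]
  refine h.setIntegral_le_vr (by positivity) ?_ ?_ ?_
  · refine (((hφ.continuous_deriv (by simp)).comp_continuousOn hf2.continuousOn).neg).mul ?_
    exact ((hf2.continuousOn_fderiv_of_isOpen h.sc.op (by norm_num)).norm).pow 2
  · intro x hx hxK
    have h1 := gr_eq_zero h.sc.op hKc.isClosed hz hx hxK
    have h2 := e3 x hx
    rw [← h2]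
    have h3 : ∀ i, pd i (fun x => φ (f x)) x = 0 := fun i => congrFun h1 i
    simp [h3]
  · intro x hx hfx
    have h1 := h.grad_bound hn hx hfx
    rw [← hP] at h1
    have h2 : ‖fderiv ℝ f x‖ ^ 2 ≤ P ^ 2 := by gcongr
    have h3 : - deriv φ (f x) ≤ B := by linarith [hd (f x)]
    exact mul_le_mul h3 h2 (by positivity) hB

/-- Energy bound for `log (v + ε)`. -/
theorem log_bound (h : NF Ω f x₀ rad m M) (hφ : ContDiff ℝ ∞ φ) (hB : 0 ≤ B)
    (hφ01 : ∀ t, 0 ≤ φ t ∧ φ t ≤ 1)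
    (h0 : ∀ t, 3 / 4 ≤ t → φ t = 0) (hd : ∀ t, -B ≤ deriv φ t) (hd' : ∀ t, deriv φ t ≤ 0)
    {v : En n → ℝ} (hv : ContDiffOn ℝ ∞ v Ω) (hv0 : ∀ x ∈ Ω, 0 ≤ v x)
    (hLv : ∀ x ∈ Ω, Lop f v x ≤ 0) {ε : ℝ} (hε : 0 < ε) :
    ∫ x in Ω, φ (f x) ^ 2 * bil (cof f x) (gr (fun y => Real.log (v y + ε)) x)
      (gr (fun y => Real.log (v y + ε)) x) ≤ 4 * (B * (n * M * vr n rad)) := by
  set K := {x | x ∈ Ω ∧ f x ≤ 3 / 4} with hK
  have hKc : IsCompact K := h.compact_sub (by norm_num)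
  have hKΩ : K ⊆ Ω := fun x hx => hx.1
  have hz : ∀ y ∈ Ω, y ∉ K → φ (f y) = 0 := by
    intro y hy hyK
    refine h0 _ ?_
    by_contra hc
    exact hyK ⟨hy, (not_le.1 hc).le⟩
  have hf2 : ContDiffOn ℝ 2 f Ω := h.sc.sm.of_le two_le_inf
  have hχ : ContDiffOn ℝ 1 (fun y => φ (f y)) Ω :=
    (hφ.of_le (by simp)).comp_contDiffOn (hf2.of_le (by norm_num))
  have hpos : ∀ x ∈ Ω, 0 < v x + ε := fun x hx => by linarith [hv0 x hx]
  have hve : ContDiffOn ℝ ∞ (fun y => v y + ε) Ω := hv.add contDiffOn_const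
  have hg : ContDiffOn ℝ ∞ (fun y => Real.log (v y + ε)) Ω :=
    hve.log (fun x hx => (hpos x hx).ne')
  have hsup : ∀ y ∈ Ω, ∑ i, ∑ j, cof f y i j * pd i (pd j (fun y => Real.log (v y + ε))) y ≤
      - bil (cof f y) (gr (fun y => Real.log (v y + ε)) y)
        (gr (fun y => Real.log (v y + ε)) y) := by
    intro y hy
    have hsm : C.Sm (fun y => v y + ε) y := hve.contDiffAt (h.sc.op.mem_nhds hy)
    have h1 := C.Lo_log (u := f) hsm (hpos y hy).ne'
    have h2 : C.Lo f (fun y => v y + ε) y ≤ 0 := by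
      have h3 := C.Lo_add (u := f) (hv.contDiffAt (h.sc.op.mem_nhds hy) : C.Sm v y)
        (contDiffAt_const : C.Sm (fun _ => ε) y)
      rw [h3, C.Lo_const, add_zero]
      exact hLv y hy
    have h4 : ∑ i, ∑ j, cof f y i j * pd i (pd j (fun y => Real.log (v y + ε))) y =
        dt f y * C.Lo f (fun y => Real.log (v y + ε)) y := by
      simp only [C.Lo, Finset.mul_sum, hess, Matrix.of_apply, cof, dt]
      exact Finset.sum_congr rfl fun i _ => Finset.sum_congr rfl fun j _ => by ring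
    have h5 : ∀ i, pd i (fun y => Real.log (v y + ε)) y = (v y + ε)⁻¹ * pd i (fun y => v y + ε) y := by
      intro i
      have := pd_comp i (f := fun y => v y + ε) (φ := Real.log)
        (Real.differentiableAt_log (hpos y hy).ne') (differentiableAt_of h.sc.op hve (by simp) hy)
      rw [this, Real.deriv_log]
    have h6 : bil (cof f y) (gr (fun y => Real.log (v y + ε)) y)
        (gr (fun y => Real.log (v y + ε)) y) =
        dt f y * (C.ip f y (C.gr (fun y => v y + ε) y) (C.gr (fun y => v y + ε) y) /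
          (v y + ε) ^ 2) := by
      simp only [bil, gr, h5, C.ip, C.gr, cof, dt, Matrix.of_apply, Finset.mul_sum,
        Finset.sum_div]
      refine Finset.sum_congr rfl fun i _ => Finset.sum_congr rfl fun j _ => ?_
      field_simp
    rw [h4, h1, h6]
    have h7 := h.dapos hy
    have h8 : C.Lo f (fun y => v y + ε) y / (v y + ε) ≤ 0 :=
      div_nonpos_of_nonpos_of_nonneg h2 (hpos y hy).le
    have : dt f y * (C.Lo f (fun y => v y + ε) y / (v y + ε)) ≤ 0 :=
      mul_nonpos_of_nonneg_of_nonpos h7.le h8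
    rw [mul_sub]
    linarith
  have s1 := log_energy (U := cof f) (χ := fun y => φ (f y)) h.sc.op hKc hKΩ h.cof_smooth
    h.cof_div h.cof_psd hχ hz (hg.of_le two_le_inf) (fun y hy => hsup y hy.1)
  have s2 := level_energy (U := cof f) (M := B) h.sc.op hKc hKΩ h.cof_smooth h.cof_div h.cof_psd
    hf2 (hφ.of_le (by simp)) hz hd' hd
  have s3 : ∫ x in Ω, φ (f x) * ∑ i, ∑ j, cof f x i j * pd i (pd j f) x ≤
      (n * M) * vr n rad := by
    have e1 : ∀ x ∈ Ω, φ (f x) * ∑ i, ∑ j, cof f x i j * pd i (pd j f) x =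
        φ (f x) * (n * dt f x) := fun x hx => by rw [h.cof_trace hx]
    rw [setIntegral_congr_fun h.sc.op.measurableSet e1]
    refine h.setIntegral_le_vr (by have := h.Mpos; positivity) ?_ ?_ ?_
    · refine (hφ.continuous.comp_continuousOn hf2.continuousOn).mul (continuousOn_const.mul ?_)
      intro x hx
      exact (C.sm_hess_det (h.sm hx)).continuousAt.continuousWithinAt
    · intro x hx hxK
      rw [hz x hx hxK, zero_mul]
    · intro x hx _
      have h1 := hφ01 (f x)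
      have h2 : (n : ℝ) * dt f x ≤ n * M := by gcongr; exact h.hM x hx
      have h3 : 0 ≤ (n : ℝ) * dt f x := by have := h.dapos hx; positivity
      nlinarith
  calc _ ≤ 4 * ∫ x in Ω, bil (cof f x) (gr (fun y => φ (f y)) x) (gr (fun y => φ (f y)) x) := s1
    _ ≤ 4 * (B * ∫ x in Ω, φ (f x) * ∑ i, ∑ j, cof f x i j * pd i (pd j f) x) := by gcongr
    _ ≤ 4 * (B * (n * M * vr n rad)) := by gcongr

end NF

end Vale.Agent.P252.H338
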