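import Vale.Agent.P252.H338.Core3

/-!
# Normalised sections: the measure estimate
-/

open MeasureTheory Set Filter Topology Metric
open scoped ContDiff RealInnerProductSpace

namespace Vale.Agent.P252.H338

open Vale.Agent.P252.R (En SC dt epi Lop)

variable {n : ℕ}

/-- The slope bound of the cut-off. -/
noncomputable def Bc : ℝ := exists_cutoff.choose_spec.choose

namespace NF

variable {Ω : Set (En n)} {f : En n → ℝ} {x₀ : En n} {rad m M : ℝ}

/-- The constant of the `W^{1,1}` bound. -/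
noncomputable def C0 (n : ℕ) (rad m M : ℝ) : ℝ :=
  1 / 2 * (Bc * (2 * (M * (16 * rad ^ 2) ^ n) / rad) ^ 2 * vr n rad / m +
    4 * (Bc * (n * M * vr n rad)))

theorem trace_nonneg (h : NF Ω f x₀ rad m M) {x : En n} (hx : x ∈ Ω) : 0 ≤ (hess f x).trace :=
  (h.sc.pos x hx).posSemidef.trace_nonneg

/-- **The gradient of `log (v + ε)` is bounded in `L¹({f < 1/2})`.** -/
theorem L1_bound (h : NF Ω f x₀ rad m M) (hn : 0 < n)
    {v : En n → ℝ} (hv : ContDiffOn ℝ ∞ v Ω) (hv0 : ∀ x ∈ Ω, 0 ≤ v x)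
    (hLv : ∀ x ∈ Ω, Lop f v x ≤ 0) {ε : ℝ} (hε : 0 < ε) :
    ∫⁻ x in {x | x ∈ Ω ∧ f x < 1 / 2}, ‖fderiv ℝ (fun y => Real.log (v y + ε)) x‖ₑ ≤
      ENNReal.ofReal (C0 n rad m M) := by
  obtain ⟨hφ, hB, hφ01, h1, h0, hd, hd'⟩ := exists_cutoff.choose_spec.choose_spec
  set φ := exists_cutoff.choose with hφdef
  change 0 ≤ Bc at hB
  change ∀ t, -Bc ≤ deriv φ t at hd
  set g : En n → ℝ := fun y => Real.log (v y + ε) with hgdef
  set K := {x | x ∈ Ω ∧ f x ≤ 3 / 4} with hK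
  have hKc : IsCompact K := h.compact_sub (by norm_num)
  have hKΩ : K ⊆ Ω := fun x hx => hx.1
  have hz : ∀ y ∈ Ω, y ∉ K → φ (f y) = 0 := by
    intro y hy hyK
    refine h0 _ ?_
    by_contra hc
    exact hyK ⟨hy, (not_le.1 hc).le⟩
  have hf2 : ContDiffOn ℝ 2 f Ω := h.sc.sm.of_le two_le_inf
  have hpos : ∀ x ∈ Ω, 0 < v x + ε := fun x hx => by linarith [hv0 x hx]
  have hve : ContDiffOn ℝ ∞ (fun y => v y + ε) Ω := hv.add contDiffOn_const
  have hg : ContDiffOn ℝ ∞ g Ω := hve.log (fun x hx => (hpos x hx).ne')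
  have hmpos := h.mpos
  set F : En n → ℝ := fun x => 1 / 2 * (φ (f x) * (hess f x).trace / m +
    φ (f x) ^ 2 * bil (cof f x) (gr g x) (gr g x)) with hF
  have cφ : ContinuousOn (fun x => φ (f x)) Ω := hφ.continuous.comp_continuousOn hf2.continuousOn
  have ctr : ContinuousOn (fun x => (hess f x).trace) Ω := by
    simp only [Matrix.trace, Matrix.diag_apply]
    refine continuousOn_finsetSum _ fun i _ => ?_
    exact continuousOn_pd h.sc.op (contDiffOn_pd (m := 1) h.sc.op hf2 (by norm_num) i) le_rfl i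
  have cbil : ContinuousOn (fun x => bil (cof f x) (gr g x) (gr g x)) Ω :=
    continuousOn_bil (fun i j => (h.cof_smooth i j).continuousOn)
      (fun i => continuousOn_pd h.sc.op hg (by simp) i)
      (fun i => continuousOn_pd h.sc.op hg (by simp) i)
  have i1 : IntegrableOn (fun x => φ (f x) * (hess f x).trace) Ω :=
    integrableOn_of_compact h.sc.op hKc hKΩ (cφ.mul ctr) (fun y hy hyK => by simp [hz y hy hyK])
  have i2 : IntegrableOn (fun x => φ (f x) ^ 2 * bil (cof f x) (gr g x) (gr g x)) Ω :=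
    integrableOn_of_compact h.sc.op hKc hKΩ ((cφ.pow 2).mul cbil)
      (fun y hy hyK => by simp [hz y hy hyK])
  have iF : IntegrableOn F Ω := ((i1.div_const m).add i2).const_mul (1 / 2)
  have hF0 : ∀ x ∈ Ω, 0 ≤ F x := by
    intro x hx
    have e1 := h.trace_nonneg hx
    have e2 := bil_self_nonneg (h.cof_psd x hx) (gr g x)
    have e3 := (hφ01 (f x)).1
    simp only [hF]
    positivity
  have hFi : ∫ x in Ω, F x ≤ C0 n rad m M := by
    have l1 := h.laplace_bound hn hφ hB h0 hd hd'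
    have l2 := h.log_bound hφ hB hφ01 h0 hd hd' hv hv0 hLv hε
    have e1 : ∫ x in Ω, F x = 1 / 2 * ((∫ x in Ω, φ (f x) * (hess f x).trace) / m +
        ∫ x in Ω, φ (f x) ^ 2 * bil (cof f x) (gr g x) (gr g x)) := by
      simp only [hF]
      rw [integral_const_mul, integral_add (i1.div_const m) i2, integral_div]
    rw [e1, C0]
    gcongr
  have hpt : ∀ x ∈ {x | x ∈ Ω ∧ f x < 1 / 2}, ‖fderiv ℝ g x‖ₑ ≤ ENNReal.ofReal (F x) := by
    intro x hx
    have hφ1 : φ (f x) = 1 := h1 _ hx.2.le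
    rw [← ofReal_norm]
    refine ENNReal.ofReal_le_ofReal ?_
    have hnorm : ∑ i, pd i g x ^ 2 = ‖fderiv ℝ g x‖ ^ 2 := by
      rw [← norm_grad, EuclideanSpace.norm_sq_eq]
      simp [H402.grad]
    have e1 := sum_sq_le_trace_mul (h.sc.pos x hx.1) (gr g x)
    have e2 : ∑ i, gr g x i ^ 2 = ‖fderiv ℝ g x‖ ^ 2 := by rw [← hnorm]; rfl
    rw [e2] at e1
    have hda := h.dapos hx.1
    have e3 : bil (hess f x)⁻¹ (gr g x) (gr g x) = bil (cof f x) (gr g x) (gr g x) / dt f x := by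
      rw [bil_cof]; field_simp
    have e4 := bil_self_nonneg (h.cof_psd x hx.1) (gr g x)
    set b := bil (cof f x) (gr g x) (gr g x) with hb
    set a := (hess f x).trace / m with ha
    have htr := h.trace_nonneg hx.1
    have ha0 : 0 ≤ a := by positivity
    have e5 : ‖fderiv ℝ g x‖ ^ 2 ≤ a * b := by
      calc ‖fderiv ℝ g x‖ ^ 2 ≤ (hess f x).trace * (b / dt f x) := by rw [← e3]; exact e1
        _ = (hess f x).trace / dt f x * b := by ring
        _ ≤ a * b := by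
          refine mul_le_mul_of_nonneg_right ?_ e4
          rw [ha]
          exact div_le_div_of_nonneg_left htr hmpos (h.hm x hx.1)
    have e6 : F x = 1 / 2 * (a + b) := by
      simp only [hF, hφ1, one_mul, one_pow, ha, hb]
    rw [e6]
    have e7 : ‖fderiv ℝ g x‖ ^ 2 ≤ (1 / 2 * (a + b)) ^ 2 := by nlinarith [sq_nonneg (a - b)]
    exact le_of_sq_le_sq e7 (by positivity)
  have hSm : MeasurableSet {x | x ∈ Ω ∧ f x < 1 / 2} := (h.isOpen_sub _).measurableSet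
  calc ∫⁻ x in {x | x ∈ Ω ∧ f x < 1 / 2}, ‖fderiv ℝ g x‖ₑ
      ≤ ∫⁻ x in {x | x ∈ Ω ∧ f x < 1 / 2}, ENNReal.ofReal (F x) := setLIntegral_mono' hSm hpt
    _ ≤ ∫⁻ x in Ω, ENNReal.ofReal (F x) := lintegral_mono_set fun x hx => hx.1
    _ = ENNReal.ofReal (∫ x in Ω, F x) := by
        rw [ofReal_integral_eq_lintegral_ofReal iF]
        exact (ae_restrict_iff' h.sc.op.measurableSet).2 (Eventually.of_forall hF0)
    _ ≤ ENNReal.ofReal (C0 n rad m M) := ENNReal.ofReal_le_ofReal hFi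

/-- Weakening of the determinant bounds. -/
theorem weaken (h : NF Ω f x₀ rad m M) {m' M' : ℝ} (hm' : 0 < m') (h1 : m' ≤ m) (h2 : M ≤ M') :
    NF Ω f x₀ rad m' M' :=
  { h with
    mpos := hm'
    hm := fun x hx => h1.trans (h.hm x hx)
    hM := fun x hx => (h.hM x hx).trans h2 }

/-- **Contact estimate.** -/
theorem contact (h : NF Ω f x₀ rad m M) (hn : 0 < n)
    {v : En n → ℝ} (hv : ContDiffOn ℝ ∞ v Ω) (hv0 : ∀ x ∈ Ω, 0 ≤ v x)
    (hLv : ∀ x ∈ Ω, Lop f v x ≤ 0) {ε : ℝ} (hε : 0 < ε) (hvx : v x₀ ≤ ε) :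
    volume (ball (0 : En n) (1 / (8 * rad))) ≤
      ENNReal.ofReal M * volume {x | x ∈ Ω ∧ f x < 1 / 2 ∧ v x ≤ 8 * ε} := by
  have hrad := h.rad_ge hn
  have hM := h.Mpos
  set S : Set (En n) := {x | x ∈ Ω ∧ f x ≤ 1 / 2} with hS
  set U : Set (En n) := {x | x ∈ Ω ∧ f x < 1 / 2} with hU
  have hUS : U ⊆ S := fun x hx => ⟨hx.1, hx.2.le⟩
  have hSc : IsCompact S := h.compact_sub (by norm_num)
  have hUo : IsOpen U := h.isOpen_sub _
  have hx0n : ‖x₀‖ ≤ rad := h.out _ h.x0m (by rw [h.fx0]; norm_num)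
  have hve : ∀ x ∈ Ω, C.Sm (fun y => (16 * ε)⁻¹ * v y) x := fun x hx =>
    contDiffAt_const.mul (hv.contDiffAt (h.sc.op.mem_nhds hx))
  have hf1 : ∀ x ∈ Ω, C.Sm (fun y => f y - 1 / 2) x := fun x hx =>
    (h.sm hx).sub contDiffAt_const
  set ψ : En n → ℝ := fun y => (16 * ε)⁻¹ * v y + (f y - 1 / 2) with hψ
  have hψs : ∀ x ∈ Ω, C.Sm ψ x := fun x hx => (hve x hx).add (hf1 x hx)
  have hψc : ContinuousOn ψ S := fun x hx => (hψs x hx.1).continuousAt.continuousWithinAt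
  have h2 : ∀ x ∈ U, ContDiffAt ℝ 2 ψ x := fun x hx => (hψs x hx.1).of_le two_le_inf
  have hψx0 : ψ x₀ ≤ -(1 / 4) := by
    simp only [hψ, h.fx0]
    have h3 : (16 * ε)⁻¹ * v x₀ ≤ (16 * ε)⁻¹ * ε := by gcongr
    have h4 : (16 * ε)⁻¹ * ε = 1 / 16 := by field_simp
    linarith
  have hlow : ∀ x ∈ Ω, f x - 1 / 2 ≤ ψ x := by
    intro x hx
    have : 0 ≤ (16 * ε)⁻¹ * v x := mul_nonneg (by positivity) (hv0 x hx)
    simp only [hψ]; linarith
  have hT : H402.contactSet U ψ ⊆ {x | x ∈ Ω ∧ f x < 1 / 2 ∧ v x ≤ 8 * ε} := by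
    rintro x ⟨hxU, hneg, -⟩
    refine ⟨hxU.1, hxU.2, ?_⟩
    have h3 : (16 * ε)⁻¹ * v x < 1 / 2 := by
      have := h.nn x hxU.1
      simp only [hψ] at hneg
      linarith
    rw [inv_mul_lt_iff₀ (by positivity)] at h3
    linarith
  have hdet : ∀ x ∈ H402.contactSet U ψ, (hess ψ x).det ≤ M := by
    rintro x ⟨hxU, hneg, hpsd⟩
    have hx := hxU.1
    refine le_trans ?_ (h.hM x hx)
    refine H402.det_le_det_of_trace_le (h.sc.pos x hx) hpsd hn ?_
    have h5 : C.Lo f ψ x = (16 * ε)⁻¹ * C.Lo f v x + n := by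
      have e1 := C.Lo_add (u := f) (hve x hx) (hf1 x hx)
      have e2 := C.Lo_const_mul (u := f) (16 * ε)⁻¹
        (hv.contDiffAt (h.sc.op.mem_nhds hx) : C.Sm v x)
      have e3 := C.Lo_sub (u := f) (h.sm hx) (contDiffAt_const : C.Sm (fun _ => (1 / 2 : ℝ)) x)
      rw [C.Lo_const, C.Lo_self (h.sm hx) (h.dapos hx).ne', sub_zero] at e3
      rw [hψ, e1, e2, e3]
    have h6 : C.Lo f v x ≤ 0 := hLv x hx
    have h7 : C.Lo f ψ x ≤ n := by
      rw [h5]
      have : (16 * ε)⁻¹ * C.Lo f v x ≤ 0 :=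
        mul_nonpos_of_nonneg_of_nonpos (by positivity) h6
      linarith
    have h8 : ∑ i, ∑ j, (hess f x).det * (hess f x)⁻¹ i j * hess ψ x i j =
        (hess f x).det * C.Lo f ψ x := by
      simp only [C.Lo, Finset.mul_sum]
      exact Finset.sum_congr rfl fun i _ => Finset.sum_congr rfl fun j _ => by ring
    rw [h8, mul_comm]
    exact mul_le_mul_of_nonneg_right h7 (h.dapos hx).le
  have := H402.abp_measure hSc hUo hUS hψc h2 (x₀ := x₀) ⟨h.x0m, by rw [h.fx0]; norm_num⟩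
    (m := 1 / 4) (d := 2 * rad) (by positivity) hψx0
    (fun x hx => (norm_sub_le _ _).trans (by linarith [h.out x hx.1 (by linarith [hx.2])]))
    (fun x hx hxU => by
      have h3 : 1 / 2 ≤ f x := by
        by_contra hc
        exact hxU ⟨hx.1, not_le.1 hc⟩
      have := hlow x hx.1
      linarith) hT hdet
  have e : (1 / 4 : ℝ) / (2 * rad) = 1 / (8 * rad) := by field_simp; norm_num
  rwa [e] at this

/-- **Core estimate in normalised position.** -/
theorem core (h : NF Ω f x₀ rad m M) (hn : 0 < n)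
    {v : En n → ℝ} (hv : ContDiffOn ℝ ∞ v Ω) (hv0 : ∀ x ∈ Ω, 0 ≤ v x)
    (hLv : ∀ x ∈ Ω, Lop f v x ≤ 0) {ε lam : ℝ} (hε : 0 < ε) (hlam : 0 < lam) (hvx : v x₀ ≤ ε) :
    ENNReal.ofReal (Real.log lam - Real.log (9 * ε)) *
        volume (ball (0 : En n) (1 / (8 * rad))) *
        volume {x | x ∈ Ω ∧ f x < 1 / 2 ∧ lam < v x} ≤
      ENNReal.ofReal M * (ENNReal.ofReal (2 * rad + 1) *
        volume (ball (0 : En n) (2 * rad + 1)) * ENNReal.ofReal (C0 n rad m M)) := by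
  have hpos : ∀ x ∈ Ω, 0 < v x + ε := fun x hx => by linarith [hv0 x hx]
  have hve : ContDiffOn ℝ ∞ (fun y => v y + ε) Ω := hv.add contDiffOn_const
  have hg : ContDiffOn ℝ ∞ (fun y => Real.log (v y + ε)) Ω :=
    hve.log (fun x hx => (hpos x hx).ne')
  have h1 := low_high (Ω := Ω) (B := {x | x ∈ Ω ∧ f x < 1 / 2})
    (g := fun y => Real.log (v y + ε)) h.sc.op (hg.of_le (by simp)) (h.isOpen_sub _)
    (h.convex_sub _) (fun x hx => hx.1) (r := 2 * rad + 1) (by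
      intro x hx y hy
      have e1 := h.out x hx.1 (by linarith [hx.2])
      have e2 := h.out y hy.1 (by linarith [hy.2])
      exact (norm_sub_le _ _).trans_lt (by linarith)) (Real.log (9 * ε)) (Real.log lam)
  have h2 := h.L1_bound hn hv hv0 hLv hε
  have h3 := h.contact hn hv hv0 hLv hε hvx
  have h4 : volume {x | x ∈ Ω ∧ f x < 1 / 2 ∧ v x ≤ 8 * ε} ≤
      volume {x | x ∈ {x | x ∈ Ω ∧ f x < 1 / 2} ∧ Real.log (v x + ε) ≤ Real.log (9 * ε)} := by
    refine measure_mono ?_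
    rintro x ⟨hx, hfx, hvx⟩
    exact ⟨⟨hx, hfx⟩, Real.log_le_log (hpos x hx) (by linarith)⟩
  have h5 : volume {x | x ∈ Ω ∧ f x < 1 / 2 ∧ lam < v x} ≤
      volume {x | x ∈ {x | x ∈ Ω ∧ f x < 1 / 2} ∧ Real.log lam ≤ Real.log (v x + ε)} := by
    refine measure_mono ?_
    rintro x ⟨hx, hfx, hvx⟩
    exact ⟨⟨hx, hfx⟩, Real.log_le_log hlam (by linarith)⟩
  set L := ENNReal.ofReal (Real.log lam - Real.log (9 * ε))
  calc L * volume (ball (0 : En n) (1 / (8 * rad))) *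
        volume {x | x ∈ Ω ∧ f x < 1 / 2 ∧ lam < v x}
      ≤ L * (ENNReal.ofReal M *
          volume {x | x ∈ {x | x ∈ Ω ∧ f x < 1 / 2} ∧ Real.log (v x + ε) ≤ Real.log (9 * ε)}) *
        volume {x | x ∈ {x | x ∈ Ω ∧ f x < 1 / 2} ∧ Real.log lam ≤ Real.log (v x + ε)} := by
        gcongr
        exact h3.trans (by gcongr)
    _ = ENNReal.ofReal M * (L *
          volume {x | x ∈ {x | x ∈ Ω ∧ f x < 1 / 2} ∧ Real.log (v x + ε) ≤ Real.log (9 * ε)} *
          volume {x | x ∈ {x | x ∈ Ω ∧ f x < 1 / 2} ∧ Real.log lam ≤ Real.log (v x + ε)}) := by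
        ring
    _ ≤ _ := mul_le_mul' le_rfl (h1.trans (mul_le_mul' le_rfl h2))

end NF

end Vale.Agent.P252.H338
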