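import Vale.Agent.P252.H338.Pd

/-!
# Energy inequalities with a divergence free positive semidefinite coefficient matrix
-/

open MeasureTheory Set Filter Topology Matrix
open scoped ContDiff

namespace Vale.Agent.P252.H338

variable {n : ℕ} {Ω K : Set (EuclideanSpace ℝ (Fin n))}

/-- The bilinear form `∑ U_ij ξ_i ζ_j`. -/
def bil (A : Matrix (Fin n) (Fin n) ℝ) (ξ ζ : Fin n → ℝ) : ℝ :=
  ∑ i, ∑ j, A i j * (ξ i * ζ j)

theorem bil_eq (A : Matrix (Fin n) (Fin n) ℝ) (ξ ζ : Fin n → ℝ) :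
    bil A ξ ζ = ξ ⬝ᵥ (A *ᵥ ζ) := by
  simp only [bil, dotProduct, mulVec, Finset.mul_sum]
  exact Finset.sum_congr rfl fun i _ => Finset.sum_congr rfl fun j _ => by ring

theorem bil_self_nonneg {A : Matrix (Fin n) (Fin n) ℝ} (hA : A.PosSemidef) (ξ : Fin n → ℝ) :
    0 ≤ bil A ξ ξ := by
  rw [bil_eq]
  simpa using hA.dotProduct_mulVec_nonneg ξ

theorem bil_comm {A : Matrix (Fin n) (Fin n) ℝ} (hA : A.PosSemidef) (ξ ζ : Fin n → ℝ) :
    bil A ξ ζ = bil A ζ ξ := by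
  simp only [bil]
  rw [Finset.sum_comm]
  refine Finset.sum_congr rfl fun i _ => Finset.sum_congr rfl fun j _ => ?_
  have : A j i = A i j := by
    have := congrFun (congrFun hA.1 i) j
    simpa [conjTranspose_apply] using this
  rw [this]; ring

theorem bil_add_left (A : Matrix (Fin n) (Fin n) ℝ) (ξ ξ' ζ : Fin n → ℝ) :
    bil A (ξ + ξ') ζ = bil A ξ ζ + bil A ξ' ζ := by
  simp only [bil_eq, add_dotProduct]

theorem bil_add_right (A : Matrix (Fin n) (Fin n) ℝ) (ξ ζ ζ' : Fin n → ℝ) :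
    bil A ξ (ζ + ζ') = bil A ξ ζ + bil A ξ ζ' := by
  simp only [bil_eq, mulVec_add, dotProduct_add]

theorem bil_smul_left (A : Matrix (Fin n) (Fin n) ℝ) (c : ℝ) (ξ ζ : Fin n → ℝ) :
    bil A (c • ξ) ζ = c * bil A ξ ζ := by
  simp only [bil_eq, smul_dotProduct, smul_eq_mul]

theorem bil_smul_right (A : Matrix (Fin n) (Fin n) ℝ) (c : ℝ) (ξ ζ : Fin n → ℝ) :
    bil A ξ (c • ζ) = c * bil A ξ ζ := by
  simp only [bil_eq, mulVec_smul, dotProduct_smul, smul_eq_mul]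

/-- Young's inequality for the form. -/
theorem two_mul_bil_le {A : Matrix (Fin n) (Fin n) ℝ} (hA : A.PosSemidef) (s : ℝ)
    (ξ ζ : Fin n → ℝ) : 2 * s * bil A ξ ζ ≤ 2 * bil A ξ ξ + s ^ 2 / 2 * bil A ζ ζ := by
  have h := bil_self_nonneg hA ((2 : ℝ) • ξ + (-s) • ζ)
  rw [bil_add_left, bil_add_right, bil_add_right] at h
  simp only [bil_smul_left, bil_smul_right] at h
  rw [bil_comm hA ζ ξ] at h
  nlinarith

/-- **Cauchy-Schwarz** -/
theorem bil_sq_le {A : Matrix (Fin n) (Fin n) ℝ} (hA : A.PosSemidef) (ξ ζ : Fin n → ℝ) :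
    bil A ξ ζ ^ 2 ≤ bil A ξ ξ * bil A ζ ζ := by
  have h : ∀ t : ℝ, 0 ≤ bil A ζ ζ * (t * t) + (2 * bil A ξ ζ) * t + bil A ξ ξ := by
    intro t
    have h := bil_self_nonneg hA (ξ + t • ζ)
    rw [bil_add_left, bil_add_right, bil_add_right] at h
    simp only [bil_smul_left, bil_smul_right] at h
    rw [bil_comm hA ζ ξ] at h
    nlinarith
  have := discrim_le_zero h
  rw [discrim] at this
  nlinarith

/-- `|ξ|² ≤ tr H · ξᵀ H⁻¹ ξ` for a positive definite matrix `H`. -/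
theorem sum_sq_le_trace_mul {H : Matrix (Fin n) (Fin n) ℝ} (hH : H.PosDef) (ξ : Fin n → ℝ) :
    ∑ i, ξ i ^ 2 ≤ H.trace * bil H⁻¹ ξ ξ := by
  have hdet : IsUnit H.det := hH.det_pos.ne'.isUnit
  set η := H⁻¹ *ᵥ ξ with hη
  have h1 : H *ᵥ η = ξ := by
    rw [hη, mulVec_mulVec, mul_nonsing_inv _ hdet, one_mulVec]
  have h2 : bil H⁻¹ ξ ξ = bil H η η := by
    rw [bil_eq, bil_eq, h1, ← hη, dotProduct_comm]
  have h3 : ∀ i, ξ i ^ 2 ≤ H i i * bil H η η := by
    intro i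
    have h4 : ξ i = bil H (Pi.single i 1) η := by
      rw [bil_eq, h1]; simp
    have h5 : H i i = bil H (Pi.single i 1) (Pi.single i 1) := by
      rw [bil_eq]; simp
    rw [h4, h5]
    exact bil_sq_le hH.posSemidef _ _
  calc ∑ i, ξ i ^ 2 ≤ ∑ i, H i i * bil H η η := Finset.sum_le_sum fun i _ => h3 i
    _ = H.trace * bil H⁻¹ ξ ξ := by rw [← Finset.sum_mul, h2]; rfl

section Cont

variable {U : EuclideanSpace ℝ (Fin n) → Matrix (Fin n) (Fin n) ℝ}
  {f g : EuclideanSpace ℝ (Fin n) → ℝ}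

theorem continuousOn_pd (hΩ : IsOpen Ω) {m : WithTop ℕ∞} (hf : ContDiffOn ℝ m f Ω) (hm : 1 ≤ m)
    (i : Fin n) : ContinuousOn (pd i f) Ω :=
  (contDiffOn_pd (m := 0) hΩ hf (by simpa using hm) i).continuousOn

theorem continuousOn_bil (hU : ∀ i j, ContinuousOn (fun y => U y i j) Ω)
    (hf : ∀ i, ContinuousOn (pd i f) Ω) (hg : ∀ i, ContinuousOn (pd i g) Ω) :
    ContinuousOn (fun x => bil (U x) (gr f x) (gr g x)) Ω := by
  simp only [bil, gr]
  exact continuousOn_finsetSum _ fun i _ => continuousOn_finsetSum _ fun j _ =>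
    (hU i j).mul ((hf i).mul (hg j))

end Cont

/-- A function vanishing off a closed set has vanishing gradient off it. -/
theorem gr_eq_zero {f : EuclideanSpace ℝ (Fin n) → ℝ} (hΩ : IsOpen Ω) (hK : IsClosed K)
    (h0 : ∀ y ∈ Ω, y ∉ K → f y = 0) {x : EuclideanSpace ℝ (Fin n)} (hx : x ∈ Ω) (hxK : x ∉ K) :
    gr f x = 0 := by
  funext i
  have h3 : f =ᶠ[𝓝 x] fun _ => (0 : ℝ) := by
    filter_upwards [(hΩ.sdiff hK).mem_nhds ⟨hx, hxK⟩] with z hz
    exact h0 z hz.1 hz.2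
  simp only [gr, Pi.zero_apply]
  rw [pd_congr i h3, pd_const]

/-- **Caccioppoli inequality in logarithmic form**: if `∑ U_ij g_ij ≤ - ∑ U_ij g_i g_j` then
`∫ χ² U(∇g, ∇g) ≤ 4 ∫ U(∇χ, ∇χ)`. -/
theorem log_energy {U : EuclideanSpace ℝ (Fin n) → Matrix (Fin n) (Fin n) ℝ}
    {χ g : EuclideanSpace ℝ (Fin n) → ℝ} (hΩ : IsOpen Ω) (hK : IsCompact K) (hKΩ : K ⊆ Ω)
    (hU : ∀ i j, ContDiffOn ℝ 1 (fun y => U y i j) Ω)
    (hdiv : ∀ y ∈ Ω, ∀ j, ∑ i, pd i (fun z => U z i j) y = 0)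
    (hpsd : ∀ y ∈ Ω, (U y).PosSemidef)
    (hχ : ContDiffOn ℝ 1 χ Ω) (hχ0 : ∀ y ∈ Ω, y ∉ K → χ y = 0) (hg : ContDiffOn ℝ 2 g Ω)
    (hsup : ∀ y ∈ K, ∑ i, ∑ j, U y i j * pd i (pd j g) y ≤ - bil (U y) (gr g y) (gr g y)) :
    ∫ x in Ω, χ x ^ 2 * bil (U x) (gr g x) (gr g x) ≤
      4 * ∫ x in Ω, bil (U x) (gr χ x) (gr χ x) := by
  have hUc : ∀ i j, ContinuousOn (fun y => U y i j) Ω := fun i j => (hU i j).continuousOn
  have hgc : ∀ i, ContinuousOn (pd i g) Ω := fun i => continuousOn_pd hΩ hg (by norm_num) i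
  have hχc : ∀ i, ContinuousOn (pd i χ) Ω := fun i => continuousOn_pd hΩ hχ le_rfl i
  have hGG : ContinuousOn (fun x => bil (U x) (gr g x) (gr g x)) Ω := continuousOn_bil hUc hgc hgc
  have hXG : ContinuousOn (fun x => bil (U x) (gr χ x) (gr g x)) Ω := continuousOn_bil hUc hχc hgc
  have hXX : ContinuousOn (fun x => bil (U x) (gr χ x) (gr χ x)) Ω := continuousOn_bil hUc hχc hχc
  have hgr0 : ∀ y ∈ Ω, y ∉ K → gr χ y = 0 := fun y hy hyK =>
    gr_eq_zero hΩ hK.isClosed hχ0 hy hyK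
  have hb0 : ∀ A : Matrix (Fin n) (Fin n) ℝ, ∀ ζ, bil A 0 ζ = 0 := fun A ζ => by simp [bil]
  have i1 : IntegrableOn (fun x => χ x ^ 2 * bil (U x) (gr g x) (gr g x)) Ω :=
    integrableOn_of_compact hΩ hK hKΩ ((hχ.continuousOn.pow 2).mul hGG)
      (fun y hy hyK => by simp [hχ0 y hy hyK])
  have i2 : IntegrableOn (fun x => bil (U x) (gr χ x) (gr χ x)) Ω :=
    integrableOn_of_compact hΩ hK hKΩ hXX (fun y hy hyK => by rw [hgr0 y hy hyK, hb0])
  have i3 : IntegrableOn (fun x => 2 * χ x * bil (U x) (gr χ x) (gr g x)) Ω :=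
    integrableOn_of_compact hΩ hK hKΩ (((continuousOn_const.mul hχ.continuousOn)).mul hXG)
      (fun y hy hyK => by simp [hχ0 y hy hyK])
  have hLg : ContinuousOn (fun x => ∑ i, ∑ j, U x i j * pd i (pd j g) x) Ω := by
    refine continuousOn_finsetSum _ fun i _ => continuousOn_finsetSum _ fun j _ => ?_
    exact (hUc i j).mul (continuousOn_pd hΩ
      (contDiffOn_pd (m := 1) hΩ hg (by norm_num) j) le_rfl i)
  have i4 : IntegrableOn (fun x => χ x ^ 2 * ∑ i, ∑ j, U x i j * pd i (pd j g) x) Ω :=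
    integrableOn_of_compact hΩ hK hKΩ ((hχ.continuousOn.pow 2).mul hLg)
      (fun y hy hyK => by simp [hχ0 y hy hyK])
  -- Green's formula
  have hgreen := green (a := fun x => χ x ^ 2) hΩ hK hKΩ hU hdiv (hχ.pow 2)
    (fun y hy hyK => by simp [hχ0 y hy hyK]) hg
  have e1 : ∫ x in Ω, ∑ i, ∑ j, U x i j * (pd i (fun x => χ x ^ 2) x * pd j g x) =
      ∫ x in Ω, 2 * χ x * bil (U x) (gr χ x) (gr g x) := by
    refine setIntegral_congr_fun hΩ.measurableSet fun x hx => ?_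
    have hd : DifferentiableAt ℝ χ x := differentiableAt_of hΩ hχ one_ne_zero hx
    have : ∀ i, pd i (fun x => χ x ^ 2) x = 2 * χ x * pd i χ x := by
      intro i
      have := pd_mul i hd hd
      simp only [pow_two]
      rw [this]; ring
    simp only [this, bil, gr, Finset.mul_sum]
    exact Finset.sum_congr rfl fun i _ => Finset.sum_congr rfl fun j _ => by ring
  rw [e1] at hgreen
  -- use the differential inequality
  have l1 : ∫ x in Ω, χ x ^ 2 * bil (U x) (gr g x) (gr g x) ≤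
      - ∫ x in Ω, χ x ^ 2 * ∑ i, ∑ j, U x i j * pd i (pd j g) x := by
    rw [← integral_neg]
    refine setIntegral_mono_on i1 i4.neg hΩ.measurableSet fun x hx => ?_
    by_cases hxK : x ∈ K
    · have := hsup x hxK
      nlinarith [sq_nonneg (χ x)]
    · simp [hχ0 x hx hxK]
  have l2 : ∫ x in Ω, 2 * χ x * bil (U x) (gr χ x) (gr g x) ≤
      ∫ x in Ω, (2 * bil (U x) (gr χ x) (gr χ x) +
        1 / 2 * (χ x ^ 2 * bil (U x) (gr g x) (gr g x))) := by
    refine setIntegral_mono_on i3 ((i2.const_mul 2).add (i1.const_mul (1 / 2))) hΩ.measurableSet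
      fun x hx => ?_
    have := two_mul_bil_le (hpsd x hx) (χ x) (gr χ x) (gr g x)
    linarith
  rw [integral_add (i2.const_mul 2) (i1.const_mul (1 / 2)), integral_const_mul,
    integral_const_mul] at l2
  linarith

/-- **Energy of a function of `f`**: with `χ = φ(f)`, `φ` nonincreasing with slope `≥ -M`,
`∫ U(∇χ, ∇χ) ≤ M ∫ φ(f) L f`. -/
theorem level_energy {U : EuclideanSpace ℝ (Fin n) → Matrix (Fin n) (Fin n) ℝ}
    {f : EuclideanSpace ℝ (Fin n) → ℝ} {φ : ℝ → ℝ} {M : ℝ}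
    (hΩ : IsOpen Ω) (hK : IsCompact K) (hKΩ : K ⊆ Ω)
    (hU : ∀ i j, ContDiffOn ℝ 1 (fun y => U y i j) Ω)
    (hdiv : ∀ y ∈ Ω, ∀ j, ∑ i, pd i (fun z => U z i j) y = 0)
    (hpsd : ∀ y ∈ Ω, (U y).PosSemidef) (hf : ContDiffOn ℝ 2 f Ω)
    (hφ : ContDiff ℝ 1 φ) (hφ0 : ∀ y ∈ Ω, y ∉ K → φ (f y) = 0)
    (hφ1 : ∀ t, deriv φ t ≤ 0) (hφ2 : ∀ t, - M ≤ deriv φ t) :
    ∫ x in Ω, bil (U x) (gr (fun y => φ (f y)) x) (gr (fun y => φ (f y)) x) ≤
      M * ∫ x in Ω, φ (f x) * ∑ i, ∑ j, U x i j * pd i (pd j f) x := by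
  have hUc : ∀ i j, ContinuousOn (fun y => U y i j) Ω := fun i j => (hU i j).continuousOn
  have hfc : ∀ i, ContinuousOn (pd i f) Ω := fun i => continuousOn_pd hΩ hf (by norm_num) i
  have hχ : ContDiffOn ℝ 1 (fun y => φ (f y)) Ω := hφ.comp_contDiffOn (hf.of_le (by norm_num))
  have hFF : ContinuousOn (fun x => bil (U x) (gr f x) (gr f x)) Ω := continuousOn_bil hUc hfc hfc
  have hgrχ : ∀ x ∈ Ω, gr (fun y => φ (f y)) x = deriv φ (f x) • gr f x := by
    intro x hx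
    funext i
    exact pd_comp i ((hφ.differentiable one_ne_zero) _) (differentiableAt_of hΩ hf two_ne_zero hx)
  have hgr0 : ∀ y ∈ Ω, y ∉ K → gr (fun y => φ (f y)) y = 0 := fun y hy hyK =>
    gr_eq_zero hΩ hK.isClosed hφ0 hy hyK
  have hdc : ContinuousOn (fun x => deriv φ (f x)) Ω :=
    (hφ.continuous_deriv le_rfl).comp_continuousOn hf.continuousOn
  have hz : ∀ y ∈ Ω, y ∉ K → deriv φ (f y) * bil (U y) (gr f y) (gr f y) = 0 := by
    intro y hy hyK
    have h1 := hgr0 y hy hyK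
    rw [hgrχ y hy] at h1
    have h2 : bil (U y) (deriv φ (f y) • gr f y) (gr f y) = 0 := by rw [h1]; simp [bil]
    rwa [bil_smul_left] at h2
  have hgreen := green (a := fun x => φ (f x)) hΩ hK hKΩ hU hdiv hχ hφ0 hf
  have e1 : ∫ x in Ω, ∑ i, ∑ j, U x i j * (pd i (fun y => φ (f y)) x * pd j f x) =
      ∫ x in Ω, deriv φ (f x) * bil (U x) (gr f x) (gr f x) := by
    refine setIntegral_congr_fun hΩ.measurableSet fun x hx => ?_
    have h1 : ∀ i, pd i (fun y => φ (f y)) x = deriv φ (f x) * pd i f x := fun i =>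
      congrFun (hgrχ x hx) i
    simp only [h1, bil, gr, Finset.mul_sum]
    exact Finset.sum_congr rfl fun i _ => Finset.sum_congr rfl fun j _ => by ring
  rw [e1] at hgreen
  have h3 : ∫ x in Ω, φ (f x) * ∑ i, ∑ j, U x i j * pd i (pd j f) x =
      ∫ x in Ω, - (deriv φ (f x) * bil (U x) (gr f x) (gr f x)) := by
    rw [integral_neg, hgreen, neg_neg]
  rw [h3, ← integral_const_mul]
  have i1 : IntegrableOn (fun x => deriv φ (f x) * bil (U x) (gr f x) (gr f x)) Ω :=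
    integrableOn_of_compact hΩ hK hKΩ (hdc.mul hFF) hz
  have i2 : IntegrableOn (fun x => deriv φ (f x) * (deriv φ (f x) * bil (U x) (gr f x) (gr f x))) Ω :=
    integrableOn_of_compact hΩ hK hKΩ (hdc.mul (hdc.mul hFF))
      (fun y hy hyK => by rw [hz y hy hyK, mul_zero])
  have e2 : ∫ x in Ω, bil (U x) (gr (fun y => φ (f y)) x) (gr (fun y => φ (f y)) x) =
      ∫ x in Ω, deriv φ (f x) * (deriv φ (f x) * bil (U x) (gr f x) (gr f x)) := by
    refine setIntegral_congr_fun hΩ.measurableSet fun x hx => ?_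
    simp only [hgrχ x hx, bil_smul_left, bil_smul_right]
  rw [e2]
  refine setIntegral_mono_on i2 (i1.neg.const_mul M) hΩ.measurableSet fun x hx => ?_
  have h4 := bil_self_nonneg (hpsd x hx) (gr f x)
  have h5 := hφ1 (f x)
  have h6 := hφ2 (f x)
  have h7 : 0 ≤ - deriv φ (f x) * bil (U x) (gr f x) (gr f x) := by nlinarith
  nlinarith

end Vale.Agent.P252.H338
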