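import Vale.Agent.P252.Defs
import Mathlib.Analysis.Calculus.LineDeriv.IntegrationByParts
import Mathlib.MeasureTheory.Measure.Haar.InnerProductSpace
import Mathlib.MeasureTheory.Integral.IntegrableOn

/-!
# Integration by parts on an open set for fields vanishing outside a compact subset
-/

open MeasureTheory Set Filter Topology
open scoped ContDiff

namespace Vale.Agent.P252.H338

section General

variable {E : Type*} [NormedAddCommGroup E] [NormedSpace ℝ E]

/-- A function on `Ω` that vanishes off a compact subset of `Ω`, extended by `0`, is as smooth as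
it was on `Ω`. -/
theorem contDiff_indicator {Ω K : Set E} {F : E → ℝ} {m : WithTop ℕ∞} (hΩ : IsOpen Ω)
    (hK : IsClosed K) (hKΩ : K ⊆ Ω) (hF : ContDiffOn ℝ m F Ω)
    (h0 : ∀ x ∈ Ω, x ∉ K → F x = 0) : ContDiff ℝ m (Ω.indicator F) := by
  rw [contDiff_iff_contDiffAt]
  intro x
  by_cases hx : x ∈ Ω
  · refine (hF.contDiffAt (hΩ.mem_nhds hx)).congr_of_eventuallyEq ?_
    filter_upwards [hΩ.mem_nhds hx] with y hy
    simp [indicator, hy]
  · have hxK : x ∈ Kᶜ := fun h => hx (hKΩ h)
    refine contDiffAt_const (c := (0 : ℝ)) |>.congr_of_eventuallyEq ?_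
    filter_upwards [hK.isOpen_compl.mem_nhds hxK] with y hy
    by_cases hyΩ : y ∈ Ω
    · simp [indicator, hyΩ, h0 y hyΩ hy]
    · simp [indicator, hyΩ]

omit [NormedSpace ℝ E] in
theorem hasCompactSupport_indicator {Ω K : Set E} {F : E → ℝ}
    (hK : IsCompact K) (h0 : ∀ x ∈ Ω, x ∉ K → F x = 0) : HasCompactSupport (Ω.indicator F) := by
  refine HasCompactSupport.intro hK fun x hx => ?_
  by_cases hxΩ : x ∈ Ω
  · simp [indicator, hxΩ, h0 x hxΩ hx]
  · simp [indicator, hxΩ]

theorem fderiv_indicator {Ω K : Set E} {F : E → ℝ} (hΩ : IsOpen Ω)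
    (hK : IsClosed K) (hKΩ : K ⊆ Ω) (h0 : ∀ x ∈ Ω, x ∉ K → F x = 0) (x v : E) :
    fderiv ℝ (Ω.indicator F) x v = Ω.indicator (fun x => fderiv ℝ F x v) x := by
  by_cases hx : x ∈ Ω
  · have : Ω.indicator F =ᶠ[𝓝 x] F := by
      filter_upwards [hΩ.mem_nhds hx] with y hy
      simp [indicator, hy]
    rw [this.fderiv_eq]
    simp [indicator, hx]
  · have hxK : x ∈ Kᶜ := fun h => hx (hKΩ h)
    have : Ω.indicator F =ᶠ[𝓝 x] fun _ => (0 : ℝ) := by
      filter_upwards [hK.isOpen_compl.mem_nhds hxK] with y hy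
      by_cases hyΩ : y ∈ Ω
      · simp [indicator, hyΩ, h0 y hyΩ hy]
      · simp [indicator, hyΩ]
    rw [this.fderiv_eq]
    simp [indicator, hx]

variable [FiniteDimensional ℝ E] [MeasurableSpace E] [BorelSpace E] {μ : Measure E}
  [μ.IsAddHaarMeasure]

/-- The integral of a directional derivative of a compactly supported `C¹` function is `0`. -/
theorem integral_fderiv_eq_zero {F : E → ℝ} (hF : ContDiff ℝ 1 F) (hc : HasCompactSupport F)
    (v : E) : ∫ x, fderiv ℝ F x v ∂μ = 0 := by
  have h1 : Integrable (fun x => fderiv ℝ F x v) μ := by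
    refine Continuous.integrable_of_hasCompactSupport ?_ ?_
    · exact (hF.continuous_fderiv one_ne_zero).clm_apply continuous_const
    · exact hc.fderiv_apply (𝕜 := ℝ) v
  have h2 : Integrable F μ := hF.continuous.integrable_of_hasCompactSupport hc
  have := integral_mul_fderiv_eq_neg_fderiv_mul_of_integrable (𝕜 := ℝ) (μ := μ)
    (f := fun _ : E => (1 : ℝ)) (g := F) (v := v) (by simp) (by simpa using h1) (by simpa using h2)
    (fun x _ => differentiableAt_const _) (fun x _ => (hF.differentiable one_ne_zero) x)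
  simpa using this

/-- **Integration by parts.** If `F` is `C¹` on the open set `Ω` and vanishes on `Ω` off a compact
subset of `Ω`, then the integral over `Ω` of a directional derivative of `F` vanishes. -/
theorem setIntegral_fderiv_eq_zero {Ω K : Set E} {F : E → ℝ} (hΩ : IsOpen Ω) (hK : IsCompact K)
    (hKΩ : K ⊆ Ω) (hF : ContDiffOn ℝ 1 F Ω) (h0 : ∀ x ∈ Ω, x ∉ K → F x = 0) (v : E) :
    ∫ x in Ω, fderiv ℝ F x v ∂μ = 0 := by
  have h1 := integral_fderiv_eq_zero (μ := μ) (contDiff_indicator hΩ hK.isClosed hKΩ hF h0)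
    (hasCompactSupport_indicator hK h0) v
  simp only [fderiv_indicator hΩ hK.isClosed hKΩ h0] at h1
  rwa [integral_indicator hΩ.measurableSet] at h1

omit [NormedSpace ℝ E] [FiniteDimensional ℝ E] in
/-- A function continuous on `Ω` and vanishing off a compact subset is integrable on `Ω`. -/
theorem integrableOn_of_compact {Ω K : Set E} {g : E → ℝ} (hΩ : IsOpen Ω) (hK : IsCompact K)
    (hKΩ : K ⊆ Ω) (hg : ContinuousOn g Ω) (h0 : ∀ x ∈ Ω, x ∉ K → g x = 0) :
    IntegrableOn g Ω μ := by
  have h1 : IntegrableOn g K μ := (hg.mono hKΩ).integrableOn_compact hK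
  have h2 : IntegrableOn g (Ω \ K) μ := by
    refine (integrableOn_congr_fun (g := fun _ => (0 : ℝ)) (fun x hx => h0 x hx.1 hx.2)
      (hΩ.measurableSet.diff hK.isClosed.measurableSet)).2 ?_
    exact integrableOn_zero
  have h3 := h1.union h2
  rwa [union_sdiff_cancel hKΩ] at h3

end General

variable {n : ℕ}

/-- **Divergence theorem**, partial derivative form of `Defs.lean`. -/
theorem setIntegral_div_eq_zero {Ω K : Set (EuclideanSpace ℝ (Fin n))}
    {X : Fin n → EuclideanSpace ℝ (Fin n) → ℝ} (hΩ : IsOpen Ω) (hK : IsCompact K)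
    (hKΩ : K ⊆ Ω) (hX : ∀ i, ContDiffOn ℝ 1 (X i) Ω) (h0 : ∀ i, ∀ x ∈ Ω, x ∉ K → X i x = 0) :
    ∫ x in Ω, ∑ i, pd i (X i) x = 0 := by
  rw [integral_finsetSum]
  · refine Finset.sum_eq_zero fun i _ => ?_
    exact setIntegral_fderiv_eq_zero hΩ hK hKΩ (hX i) (h0 i) _
  · intro i _
    have h1 := contDiff_indicator hΩ hK.isClosed hKΩ (hX i) (h0 i)
    have h2 := hasCompactSupport_indicator hK (h0 i)
    have h3 : Integrable (fun x => fderiv ℝ (Ω.indicator (X i)) x (EuclideanSpace.single i 1)) := by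
      refine Continuous.integrable_of_hasCompactSupport ?_ ?_
      · exact (h1.continuous_fderiv one_ne_zero).clm_apply continuous_const
      · exact h2.fderiv_apply (𝕜 := ℝ) _
    simp only [fderiv_indicator hΩ hK.isClosed hKΩ (h0 i)] at h3
    rwa [integrable_indicator_iff hΩ.measurableSet] at h3

end Vale.Agent.P252.H338
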