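import Vale.Agent.P252.H338.IBP

/-!
# Rules for the partial derivatives `pd` and a divergence identity
-/

open MeasureTheory Set Filter Topology
open scoped ContDiff

namespace Vale.Agent.P252.H338

variable {n : ℕ} {f g : EuclideanSpace ℝ (Fin n) → ℝ} {x : EuclideanSpace ℝ (Fin n)}
  {Ω K : Set (EuclideanSpace ℝ (Fin n))}

/-- The gradient as a vector of partial derivatives. -/
noncomputable def gr (f : EuclideanSpace ℝ (Fin n) → ℝ) (x : EuclideanSpace ℝ (Fin n)) :
    Fin n → ℝ := fun i => pd i f x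

theorem pd_add (i : Fin n) (hf : DifferentiableAt ℝ f x) (hg : DifferentiableAt ℝ g x) :
    pd i (fun y => f y + g y) x = pd i f x + pd i g x := by
  simp only [pd]; rw [fderiv_fun_add hf hg]; rfl

theorem pd_sub (i : Fin n) (hf : DifferentiableAt ℝ f x) (hg : DifferentiableAt ℝ g x) :
    pd i (fun y => f y - g y) x = pd i f x - pd i g x := by
  simp only [pd]; rw [fderiv_fun_sub hf hg]; rfl

theorem pd_neg (i : Fin n) : pd i (fun y => - f y) x = - pd i f x := by
  simp only [pd]; rw [fderiv_fun_neg]; rfl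

theorem pd_const (i : Fin n) (c : ℝ) : pd i (fun _ => c) x = 0 := by
  simp [pd]

theorem pd_mul (i : Fin n) (hf : DifferentiableAt ℝ f x) (hg : DifferentiableAt ℝ g x) :
    pd i (fun y => f y * g y) x = pd i f x * g x + f x * pd i g x := by
  simp only [pd]; rw [fderiv_fun_mul hf hg]; simp; ring

theorem pd_const_mul (i : Fin n) (c : ℝ) (hf : DifferentiableAt ℝ f x) :
    pd i (fun y => c * f y) x = c * pd i f x := by
  rw [pd_mul i (differentiableAt_const c) hf, pd_const]; ring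

theorem pd_sum {ι : Type*} (i : Fin n) (s : Finset ι) {F : ι → EuclideanSpace ℝ (Fin n) → ℝ}
    (hF : ∀ j ∈ s, DifferentiableAt ℝ (F j) x) :
    pd i (fun y => ∑ j ∈ s, F j y) x = ∑ j ∈ s, pd i (F j) x := by
  simp only [pd]; rw [fderiv_fun_sum hF]; simp

theorem pd_comp (i : Fin n) {φ : ℝ → ℝ} (hφ : DifferentiableAt ℝ φ (f x))
    (hf : DifferentiableAt ℝ f x) :
    pd i (fun y => φ (f y)) x = deriv φ (f x) * pd i f x := by
  simp only [pd]
  have := hφ.hasDerivAt.comp_hasFDerivAt x hf.hasFDerivAt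
  rw [show (fun y => φ (f y)) = φ ∘ f from rfl, this.fderiv]; simp

theorem pd_congr (i : Fin n) (h : f =ᶠ[𝓝 x] g) : pd i f x = pd i g x := by
  simp only [pd]; rw [h.fderiv_eq]

theorem contDiffOn_pd {m m' : WithTop ℕ∞} (hΩ : IsOpen Ω) (hf : ContDiffOn ℝ m' f Ω)
    (h : m + 1 ≤ m') (i : Fin n) : ContDiffOn ℝ m (pd i f) Ω :=
  (hf.fderiv_of_isOpen hΩ h).clm_apply contDiffOn_const

theorem differentiableAt_of {m : WithTop ℕ∞} (hΩ : IsOpen Ω) (hf : ContDiffOn ℝ m f Ω)
    (hm : m ≠ 0) (hx : x ∈ Ω) : DifferentiableAt ℝ f x :=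
  (hf.contDiffAt (hΩ.mem_nhds hx)).differentiableAt hm

/-- divergence of `a U ∇g` -/
theorem div_rule {U : EuclideanSpace ℝ (Fin n) → Matrix (Fin n) (Fin n) ℝ}
    {a : EuclideanSpace ℝ (Fin n) → ℝ} (hΩ : IsOpen Ω)
    (hU : ∀ i j, ContDiffOn ℝ 1 (fun y => U y i j) Ω)
    (hdiv : ∀ y ∈ Ω, ∀ j, ∑ i, pd i (fun z => U z i j) y = 0)
    (ha : ContDiffOn ℝ 1 a Ω) (hg : ContDiffOn ℝ 2 g Ω) (hx : x ∈ Ω) :
    ∑ i, pd i (fun y => a y * ∑ j, U y i j * pd j g y) x =
      (∑ i, ∑ j, U x i j * (pd i a x * pd j g x)) +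
        a x * ∑ i, ∑ j, U x i j * pd i (pd j g) x := by
  have hag : DifferentiableAt ℝ a x := differentiableAt_of hΩ ha one_ne_zero hx
  have hUd : ∀ i j, DifferentiableAt ℝ (fun y => U y i j) x := fun i j =>
    differentiableAt_of hΩ (hU i j) one_ne_zero hx
  have hgd : ∀ j, DifferentiableAt ℝ (pd j g) x := fun j =>
    differentiableAt_of hΩ (contDiffOn_pd (m := 1) hΩ hg (by norm_num) j) one_ne_zero hx
  have h1 : ∀ i, pd i (fun y => a y * ∑ j, U y i j * pd j g y) x =
      (∑ j, U x i j * (pd i a x * pd j g x)) +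
      ((∑ j, a x * (pd i (fun y => U y i j) x * pd j g x)) +
        a x * ∑ j, U x i j * pd i (pd j g) x) := by
    intro i
    have hUg : ∀ j, DifferentiableAt ℝ (fun y => U y i j * pd j g y) x := fun j =>
      (hUd i j).mul (hgd j)
    have hUgs : DifferentiableAt ℝ (fun y => ∑ j, U y i j * pd j g y) x :=
      DifferentiableAt.fun_sum fun j _ => hUg j
    rw [pd_mul i hag hUgs, pd_sum i _ (fun j _ => hUg j)]
    have : ∀ j, pd i (fun y => U y i j * pd j g y) x =
        pd i (fun y => U y i j) x * pd j g x + U x i j * pd i (pd j g) x := fun j =>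
      pd_mul i (hUd i j) (hgd j)
    simp only [this, Finset.mul_sum, Finset.sum_add_distrib, mul_add]
    congr 1
    exact Finset.sum_congr rfl fun j _ => by ring
  simp only [h1, Finset.sum_add_distrib, ← Finset.mul_sum]
  have h2 : ∑ i, ∑ j, pd i (fun y => U y i j) x * pd j g x = 0 := by
    rw [Finset.sum_comm]
    refine Finset.sum_eq_zero fun j _ => ?_
    rw [← Finset.sum_mul, hdiv x hx j, zero_mul]
  rw [h2]; ring

/-- **Green's formula** for the divergence free matrix `U`. -/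
theorem green {U : EuclideanSpace ℝ (Fin n) → Matrix (Fin n) (Fin n) ℝ}
    {a : EuclideanSpace ℝ (Fin n) → ℝ} (hΩ : IsOpen Ω) (hK : IsCompact K) (hKΩ : K ⊆ Ω)
    (hU : ∀ i j, ContDiffOn ℝ 1 (fun y => U y i j) Ω)
    (hdiv : ∀ y ∈ Ω, ∀ j, ∑ i, pd i (fun z => U z i j) y = 0)
    (ha : ContDiffOn ℝ 1 a Ω) (ha0 : ∀ y ∈ Ω, y ∉ K → a y = 0) (hg : ContDiffOn ℝ 2 g Ω) :
    ∫ x in Ω, ∑ i, ∑ j, U x i j * (pd i a x * pd j g x) =
      - ∫ x in Ω, a x * ∑ i, ∑ j, U x i j * pd i (pd j g) x := by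
  have hgc : ∀ j, ContDiffOn ℝ 1 (pd j g) Ω := fun j => contDiffOn_pd hΩ hg (by norm_num) j
  have h1 := setIntegral_div_eq_zero (X := fun i y => a y * ∑ j, U y i j * pd j g y) hΩ hK hKΩ
    (fun i => ha.mul (ContDiffOn.sum fun j _ => (hU i j).mul (hgc j)))
    (fun i y hy hyK => by simp [ha0 y hy hyK])
  have h2 : ∫ x in Ω, ∑ i, pd i (fun y => a y * ∑ j, U y i j * pd j g y) x =
      ∫ x in Ω, ((∑ i, ∑ j, U x i j * (pd i a x * pd j g x)) +
        a x * ∑ i, ∑ j, U x i j * pd i (pd j g) x) :=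
    setIntegral_congr_fun hΩ.measurableSet fun x hx => div_rule hΩ hU hdiv ha hg hx
  rw [h2, integral_add] at h1
  · linarith
  · refine integrableOn_of_compact hΩ hK hKΩ ?_ ?_
    · refine continuousOn_finsetSum _ fun i _ => continuousOn_finsetSum _ fun j _ => ?_
      exact (hU i j).continuousOn.mul (((contDiffOn_pd (m := 0) hΩ ha (by norm_num) i)).continuousOn.mul
        (hgc j).continuousOn)
    · intro y hy hyK
      have : ∀ i, pd i a y = 0 := by
        intro i
        have h3 : a =ᶠ[𝓝 y] fun _ => (0 : ℝ) := by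
          filter_upwards [(hΩ.sdiff hK.isClosed).mem_nhds ⟨hy, hyK⟩] with z hz
          exact ha0 z hz.1 hz.2
        rw [pd_congr i h3, pd_const]
      simp [this]
  · refine integrableOn_of_compact hΩ hK hKΩ ?_ ?_
    · refine ha.continuousOn.mul ?_
      refine continuousOn_finsetSum _ fun i _ => continuousOn_finsetSum _ fun j _ => ?_
      exact (hU i j).continuousOn.mul
        ((contDiffOn_pd (m := 0) hΩ (hgc j) (by norm_num) i)).continuousOn
    · intro y hy hyK
      simp [ha0 y hy hyK]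

end Vale.Agent.P252.H338
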